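import Crest.Agent.Lib.MRec.Trunc

set_option autoImplicit false
set_option linter.unusedSectionVars false

open Filter MeasureTheory
open scoped Topology InnerProductSpace FourierTransform ContDiff

namespace Crest.Agent.Lib.MRec

open Crest.OpAlg

/-- A bump with integrable Fourier transform. -/
lemma exists_bump : ∃ (ρ₀ : ℝ → ℝ) (κ : ℝ → ℂ), Continuous ρ₀ ∧ (∀ u, 0 ≤ ρ₀ u) ∧ (∀ u, ρ₀ u ≤ 1) ∧
    (∀ u, |u| ≤ 1 → ρ₀ u = 1) ∧ (∀ u, 2 ≤ |u| → ρ₀ u = 0) ∧ Integrable κ ∧
    ∀ u : ℝ, ∫ w : ℝ, Complex.exp (Complex.I * ((2 * Real.pi * w * u : ℝ) : ℂ)) * κ w = (ρ₀ u : ℂ) := by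
  let b : ContDiffBump (0 : ℝ) := ⟨1, 2, one_pos, by norm_num⟩
  have hb1 : ContDiff ℝ ∞ (fun u : ℝ => (b u : ℂ)) :=
    Complex.ofRealCLM.contDiff.comp b.contDiff
  have hb2 : HasCompactSupport (fun u : ℝ => (b u : ℂ)) := by
    have := b.hasCompactSupport
    exact this.comp_left (g := fun x : ℝ => (x : ℂ)) (by simp)
  let f : SchwartzMap ℝ ℂ := hb2.toSchwartzMap hb1
  have hf : ∀ u, f u = (b u : ℂ) := fun u => rfl
  refine ⟨fun u => b u, (𝓕 f : SchwartzMap ℝ ℂ), b.continuous, fun u => b.nonneg, fun u => b.le_one,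
    fun u hu => ?_, fun u hu => ?_, (𝓕 f).integrable, fun u => ?_⟩
  · refine b.one_of_mem_closedBall ?_
    simpa [Real.dist_eq] using hu
  · refine b.zero_of_le_dist ?_
    simpa [Real.dist_eq] using hu
  · have h1 : 𝓕⁻ (𝓕 f) = f := FourierTransform.fourierInv_fourier_eq f
    have h2 := congrArg (fun g : SchwartzMap ℝ ℂ => g u) h1
    simp only [hf] at h2
    rw [← h2, SchwartzMap.fourierInv_coe, Real.fourierInv_eq']
    refine integral_congr_ae (Eventually.of_forall fun w => ?_)
    simp only [smul_eq_mul]
    congr 2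
    simp only [RCLike.inner_apply, conj_trivial]
    push_cast
    ring

variable {H : Type*} [NormedAddCommGroup H] [InnerProductSpace ℂ H] [CompleteSpace H]

namespace LC

variable (D : LineCalculus H)

lemma continuous_character_mul (f : BoundedContinuousFunction ℝ ℂ)
    (hf : HasCompactSupport (f : ℝ → ℂ)) :
    Continuous fun t : ℝ => LineCalculus.character t * f := by
  obtain ⟨R, hR⟩ := hf.isCompact.isBounded.exists_norm_le
  have hR' : ∀ u, f u ≠ 0 → ‖u‖ ≤ R := fun u hu => hR u (subset_tsupport _ hu)
  have key : ∀ s t : ℝ, dist (LineCalculus.character s * f) (LineCalculus.character t * f) ≤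
      (max R 0 * ‖f‖) * dist s t := by
    intro s t
    rw [dist_eq_norm, Real.dist_eq]
    refine (BoundedContinuousFunction.norm_le (by positivity)).2 fun u => ?_
    simp only [BoundedContinuousFunction.coe_sub, BoundedContinuousFunction.coe_mul, Pi.sub_apply,
      Pi.mul_apply, character_apply]
    rw [← sub_mul, norm_mul]
    by_cases hu : f u = 0
    · simp only [hu, norm_zero, mul_zero]
      positivity
    · have h1 := norm_exp_sub_exp_le (s * u) (t * u)
      have h2 : |s * u - t * u| ≤ |s - t| * max R 0 := by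
        rw [← sub_mul, abs_mul]
        gcongr
        exact (hR' u hu).trans (le_max_left _ _)
      have h3 : ‖f u‖ ≤ ‖f‖ := f.norm_coe_le_norm u
      calc _ ≤ (|s - t| * max R 0) * ‖f‖ := by
            gcongr
            exact h1.trans h2
        _ = _ := by ring
  exact (LipschitzWith.of_dist_le_mul (K := Real.toNNReal (max R 0 * ‖f‖)) (by
    intro s t
    rw [Real.coe_toNNReal _ (by positivity)]
    exact key s t)).continuous

/-- Fourier representation of a multiplier: abstract form. -/
lemma apply_eq_integral (ρ : BoundedContinuousFunction ℝ ℂ) (W : ℝ → ℂ) (hW : Integrable W)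
    (τ : ℝ → ℝ) (hτ : Continuous τ)
    (hρ : ∀ u : ℝ, ∫ w : ℝ, W w * Complex.exp (Complex.I * ((τ w * u : ℝ) : ℂ)) = ρ u) (y : H) :
    D.apply ρ y = ∫ w : ℝ, W w • D.wave (τ w) y := by
  -- integrability of the vector integrand
  have hint : ∀ z : H, Integrable (fun w => W w • D.wave (τ w) z) := fun z => by
    refine Integrable.mono' (hW.norm.mul_const ‖z‖) ?_ (Eventually.of_forall fun w => ?_)
    · exact hW.aestronglyMeasurable.smul
        (((continuous_wave_apply D z).comp hτ).aestronglyMeasurable)
    · rw [norm_smul, norm_wave]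
  -- the identity on vectors in the range of a compactly supported multiplier
  have hcomp : ∀ (f : BoundedContinuousFunction ℝ ℂ), HasCompactSupport (f : ℝ → ℂ) → ∀ z : H,
      D.apply ρ (D.apply f z) = ∫ w : ℝ, W w • D.wave (τ w) (D.apply f z) := by
    intro f hf z
    have hcf : Continuous fun w : ℝ => LineCalculus.character (τ w) * f :=
      (continuous_character_mul f hf).comp hτ
    have hintB : Integrable (fun w => W w • (LineCalculus.character (τ w) * f)) := by
      refine Integrable.mono' (hW.norm.mul_const ‖f‖) ?_ (Eventually.of_forall fun w => ?_)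
      · exact hW.aestronglyMeasurable.smul hcf.aestronglyMeasurable
      · rw [norm_smul]
        gcongr
        refine (BoundedContinuousFunction.norm_le (norm_nonneg _)).2 fun u => ?_
        simp only [BoundedContinuousFunction.coe_mul, Pi.mul_apply, character_apply, norm_mul]
        rw [Complex.norm_exp_I_mul_ofReal, one_mul]
        exact f.norm_coe_le_norm u
    -- evaluation of the bochner integral in the space of functions
    have hI : ρ * f = ∫ w, W w • (LineCalculus.character (τ w) * f) := by
      ext u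
      have hev := (ContinuousLinearMap.integral_comp_comm
        (BoundedContinuousFunction.evalCLM ℂ u : BoundedContinuousFunction ℝ ℂ →L[ℂ] ℂ) hintB)
      simp only [BoundedContinuousFunction.evalCLM_apply] at hev
      rw [← hev]
      simp only [BoundedContinuousFunction.coe_mul, Pi.mul_apply, BoundedContinuousFunction.coe_smul,
        smul_eq_mul, character_apply]
      rw [← hρ u, ← integral_mul_const]
      refine integral_congr_ae (Eventually.of_forall fun w => ?_)
      ring
    -- the continuous linear map `g ↦ g(D) z`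
    let L : BoundedContinuousFunction ℝ ℂ →L[ℂ] H :=
      LinearMap.mkContinuous
        { toFun := fun g => D.apply g z
          map_add' := fun g₁ g₂ => by simp [map_add]
          map_smul' := fun c g => by simp [map_smul] } ‖z‖ (fun g => by
            simp only [LinearMap.coe_mk, AddHom.coe_mk]
            calc _ ≤ ‖D.apply g‖ * ‖z‖ := ContinuousLinearMap.le_opNorm _ _
              _ ≤ ‖g‖ * ‖z‖ := by gcongr; exact norm_apply_le D g
              _ = _ := mul_comm _ _)
    have hL : ∀ g, L g = D.apply g z := fun g => rfl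
    have h1 : D.apply ρ (D.apply f z) = L (ρ * f) := by rw [hL, apply_mul]; rfl
    rw [h1, hI, ← ContinuousLinearMap.integral_comp_comm L hintB]
    refine integral_congr_ae (Eventually.of_forall fun w => ?_)
    simp only [map_smul, hL]
    rw [apply_mul]
    rfl
  -- density
  have hK : 0 ≤ ∫ w, ‖W w‖ := integral_nonneg fun _ => norm_nonneg _
  have h0 : ‖D.apply ρ y - ∫ w : ℝ, W w • D.wave (τ w) y‖ ≤ 0 := by
    refine le_of_forall_pos_le_add fun ε hε => ?_
    set K : ℝ := ‖ρ‖ + (∫ w, ‖W w‖) + 1 with hKdef
    have hKpos : 0 < K := by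
      rw [hKdef]
      exact add_pos_of_nonneg_of_pos (add_nonneg (norm_nonneg ρ) hK) one_pos
    obtain ⟨f, hf, hfy⟩ := D.window y (ε / K) (by positivity)
    have hcompy := hcomp f hf y
    have h1 : D.apply ρ y - ∫ w : ℝ, W w • D.wave (τ w) y =
        D.apply ρ (y - D.apply f y) - ∫ w : ℝ, W w • D.wave (τ w) (y - D.apply f y) := by
      have e1 : ∫ w : ℝ, W w • D.wave (τ w) (y - D.apply f y) =
          (∫ w : ℝ, W w • D.wave (τ w) y) - ∫ w : ℝ, W w • D.wave (τ w) (D.apply f y) := by
        rw [← integral_sub (hint _) (hint _)]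
        refine integral_congr_ae (Eventually.of_forall fun w => ?_)
        simp only [map_sub, smul_sub]
      rw [e1, map_sub, hcompy]
      abel
    rw [h1, zero_add]
    have hfy' : ‖y - D.apply f y‖ ≤ ε / K := by
      rw [norm_sub_rev]; exact hfy.le
    have h2 : ‖D.apply ρ (y - D.apply f y)‖ ≤ ‖ρ‖ * (ε / K) :=
      calc _ ≤ ‖D.apply ρ‖ * ‖y - D.apply f y‖ := ContinuousLinearMap.le_opNorm _ _
        _ ≤ ‖ρ‖ * (ε / K) := by
          gcongr
          exact norm_apply_le D ρ
    have h3 : ‖∫ w : ℝ, W w • D.wave (τ w) (y - D.apply f y)‖ ≤ (∫ w, ‖W w‖) * (ε / K) := by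
      have := norm_integral_le_of_norm_le (f := fun w => W w • D.wave (τ w) (y - D.apply f y))
        (g := fun w => ‖W w‖ * (ε / K)) (hW.norm.mul_const _) (Eventually.of_forall fun w => by
          rw [norm_smul, norm_wave]
          gcongr)
      rwa [integral_mul_const] at this
    calc _ ≤ ‖D.apply ρ (y - D.apply f y)‖ + ‖∫ w : ℝ, W w • D.wave (τ w) (y - D.apply f y)‖ :=
          norm_sub_le _ _
      _ ≤ ‖ρ‖ * (ε / K) + (∫ w, ‖W w‖) * (ε / K) := add_le_add h2 h3
      _ ≤ K * (ε / K) := by
          rw [← add_mul]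
          gcongr
          rw [hKdef]
          exact (lt_add_one _).le
      _ = ε := by field_simp
  exact sub_eq_zero.1 (norm_le_zero_iff.1 h0)

end LC

end Crest.Agent.Lib.MRec
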