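import Crest.Prelude.Def_ModularData

set_option autoImplicit false

open Filter MeasureTheory
open scoped Topology InnerProductSpace

namespace Crest.Agent.Lib.MRec

open Crest.OpAlg

variable {H : Type*} [NormedAddCommGroup H] [InnerProductSpace ℂ H] [CompleteSpace H]

namespace LC

variable (D : LineCalculus H)

lemma norm_apply_le (f : BoundedContinuousFunction ℝ ℂ) : ‖D.apply f‖ ≤ ‖f‖ :=
  NonUnitalStarAlgHom.norm_apply_le D.apply f

lemma apply_mul (f g : BoundedContinuousFunction ℝ ℂ) :
    D.apply (f * g) = D.apply f * D.apply g := map_mul _ _ _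

lemma apply_one : D.apply 1 = 1 := map_one _

lemma apply_star (f : BoundedContinuousFunction ℝ ℂ) :
    D.apply (star f) = star (D.apply f) := map_star _ _

lemma apply_sub (f g : BoundedContinuousFunction ℝ ℂ) :
    D.apply (f - g) = D.apply f - D.apply g := map_sub _ _ _

@[simp] lemma character_apply (t u : ℝ) :
    LineCalculus.character t u = Complex.exp (Complex.I * ((t * u : ℝ) : ℂ)) := rfl

lemma character_mul (s t : ℝ) :
    LineCalculus.character s * LineCalculus.character t = LineCalculus.character (s + t) := by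
  ext u
  simp only [BoundedContinuousFunction.coe_mul, Pi.mul_apply, character_apply]
  rw [← Complex.exp_add]
  congr 1
  push_cast
  ring

lemma character_zero : LineCalculus.character 0 = 1 := by
  ext u
  simp

lemma star_character (t : ℝ) :
    star (LineCalculus.character t) = LineCalculus.character (-t) := by
  ext u
  simp only [BoundedContinuousFunction.star_apply, character_apply]
  rw [Complex.star_def, ← Complex.exp_conj]
  congr 1
  simp only [map_mul, Complex.conj_I, Complex.conj_ofReal]
  push_cast
  ring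

lemma wave_add (s t : ℝ) : D.wave (s + t) = D.wave s * D.wave t := by
  simp only [LineCalculus.wave, ← character_mul, apply_mul]

lemma wave_zero : D.wave 0 = 1 := by
  simp only [LineCalculus.wave, character_zero, apply_one]

lemma star_wave (t : ℝ) : star (D.wave t) = D.wave (-t) := by
  simp only [LineCalculus.wave, ← apply_star, star_character]

lemma wave_neg_mul (t : ℝ) : D.wave (-t) * D.wave t = 1 := by
  rw [← wave_add]; simp [wave_zero]

lemma wave_mul_neg (t : ℝ) : D.wave t * D.wave (-t) = 1 := by
  rw [← wave_add]; simp [wave_zero]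

lemma wave_apply_neg_apply (t : ℝ) (x : H) : D.wave (-t) (D.wave t x) = x := by
  have := congrArg (fun A : H →L[ℂ] H => A x) (wave_neg_mul D t)
  simpa using this

lemma wave_apply_apply_neg (t : ℝ) (x : H) : D.wave t (D.wave (-t) x) = x := by
  have := congrArg (fun A : H →L[ℂ] H => A x) (wave_mul_neg D t)
  simpa using this

lemma inner_wave_left (t : ℝ) (x y : H) : ⟪D.wave t x, y⟫_ℂ = ⟪x, D.wave (-t) y⟫_ℂ := by
  rw [← star_wave, ContinuousLinearMap.star_eq_adjoint, ContinuousLinearMap.adjoint_inner_right]

lemma inner_wave_right (t : ℝ) (x y : H) : ⟪x, D.wave t y⟫_ℂ = ⟪D.wave (-t) x, y⟫_ℂ := by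
  rw [inner_wave_left, neg_neg]

lemma inner_wave_wave (t : ℝ) (x y : H) : ⟪D.wave t x, D.wave t y⟫_ℂ = ⟪x, y⟫_ℂ := by
  rw [inner_wave_left, wave_apply_neg_apply]

lemma norm_wave (t : ℝ) (x : H) : ‖D.wave t x‖ = ‖x‖ := by
  have h := inner_wave_wave D t x x
  have h1 : ‖D.wave t x‖ ^ 2 = ‖x‖ ^ 2 := by
    have h2 := inner_self_eq_norm_sq_to_K (𝕜 := ℂ) (D.wave t x)
    have h3 := inner_self_eq_norm_sq_to_K (𝕜 := ℂ) x
    rw [h] at h2
    rw [h2] at h3
    exact_mod_cast h3
  exact (sq_eq_sq₀ (norm_nonneg _) (norm_nonneg _)).1 h1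

lemma opNorm_wave_le (t : ℝ) : ‖D.wave t‖ ≤ 1 :=
  ContinuousLinearMap.opNorm_le_bound _ zero_le_one (fun x => by simp [norm_wave])

lemma apply_comm_wave (f : BoundedContinuousFunction ℝ ℂ) (t : ℝ) :
    D.apply f * D.wave t = D.wave t * D.apply f := by
  simp only [LineCalculus.wave, ← apply_mul, mul_comm]

lemma apply_wave (f : BoundedContinuousFunction ℝ ℂ) (t : ℝ) (x : H) :
    D.apply f (D.wave t x) = D.wave t (D.apply f x) := by
  have := congrArg (fun A : H →L[ℂ] H => A x) (apply_comm_wave D f t)
  simpa using this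

/-- localization on supported vectors -/
lemma apply_eq_of_supported {K : Set ℝ} {x : H} (hx : D.SupportedIn K x)
    {f g : BoundedContinuousFunction ℝ ℂ} (h : ∀ u ∈ K, f u = g u) :
    D.apply f x = D.apply g x := by
  have := hx (f - g) (fun u hu => by simp [h u hu])
  rw [apply_sub] at this
  simpa [sub_eq_zero] using this

lemma supported_wave {K : Set ℝ} {x : H} (hx : D.SupportedIn K x) (t : ℝ) :
    D.SupportedIn K (D.wave t x) := by
  intro f hf
  rw [apply_wave, hx f hf, map_zero]

lemma supported_apply {K : Set ℝ} {g : BoundedContinuousFunction ℝ ℂ}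
    (hg : ∀ u, u ∉ K → g u = 0) (x : H) : D.SupportedIn K (D.apply g x) := by
  intro f hf
  have : f * g = 0 := by
    ext u
    by_cases hu : u ∈ K
    · simp [hf u hu]
    · simp [hg u hu]
  have h2 : D.apply f (D.apply g x) = D.apply (f * g) x := by
    rw [apply_mul]; rfl
  rw [h2, this]
  simp

/-- Lipschitz bound for the characters against a compactly supported multiplier. -/
lemma norm_exp_sub_exp_le (a b : ℝ) :
    ‖Complex.exp (Complex.I * (a : ℂ)) - Complex.exp (Complex.I * (b : ℂ))‖ ≤ |a - b| := by
  have h1 : Complex.exp (Complex.I * (a : ℂ)) - Complex.exp (Complex.I * (b : ℂ))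
      = Complex.exp (Complex.I * (b : ℂ)) * (Complex.exp (Complex.I * ((a - b : ℝ) : ℂ)) - 1) := by
    rw [mul_sub, ← Complex.exp_add, mul_one]
    congr 2
    push_cast
    ring
  rw [h1, norm_mul, Complex.norm_exp_I_mul_ofReal, one_mul]
  exact (Real.norm_exp_I_mul_ofReal_sub_one_le).trans_eq (Real.norm_eq_abs _)

/-- strong continuity on vectors in the range of a compactly supported multiplier -/
lemma continuous_wave_apply_apply (f : BoundedContinuousFunction ℝ ℂ)
    (hf : HasCompactSupport (f : ℝ → ℂ)) (x : H) :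
    Continuous (fun t => D.wave t (D.apply f x)) := by
  obtain ⟨R, hR⟩ := hf.isCompact.isBounded.exists_norm_le
  have hR' : ∀ u, f u ≠ 0 → ‖u‖ ≤ R := fun u hu => hR u (subset_tsupport _ hu)
  have hR0 : 0 ≤ max R 0 := le_max_right _ _
  have key : ∀ s t : ℝ, dist (D.wave s (D.apply f x)) (D.wave t (D.apply f x)) ≤
      (max R 0 * ‖f‖ * ‖x‖) * dist s t := by
    intro s t
    rw [dist_eq_norm, dist_eq_norm, ← _root_.mul_apply_eq_comp, ← _root_.mul_apply_eq_comp,
      LineCalculus.wave, LineCalculus.wave, ← apply_mul, ← apply_mul, ← sub_apply,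
      ← apply_sub]
    have hn : ‖LineCalculus.character s * f - LineCalculus.character t * f‖ ≤
        max R 0 * ‖f‖ * ‖s - t‖ := by
      refine (BoundedContinuousFunction.norm_le (by positivity)).2 fun u => ?_
      simp only [BoundedContinuousFunction.coe_sub, BoundedContinuousFunction.coe_mul, Pi.sub_apply,
        Pi.mul_apply, character_apply]
      rw [← sub_mul, norm_mul]
      by_cases hu : f u = 0
      · simp only [hu, norm_zero, mul_zero]
        positivity
      · have h1 := norm_exp_sub_exp_le (s * u) (t * u)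
        have h2 : |s * u - t * u| ≤ ‖s - t‖ * max R 0 := by
          rw [← sub_mul, abs_mul, Real.norm_eq_abs]
          gcongr
          exact (hR' u hu).trans (le_max_left _ _)
        have h3 : ‖f u‖ ≤ ‖f‖ := f.norm_coe_le_norm u
        calc _ ≤ (‖s - t‖ * max R 0) * ‖f‖ := by
              gcongr
              exact h1.trans h2
          _ = _ := by ring
    calc _ ≤ ‖D.apply (LineCalculus.character s * f - LineCalculus.character t * f)‖ * ‖x‖ :=
          ContinuousLinearMap.le_opNorm _ _
      _ ≤ (max R 0 * ‖f‖ * ‖s - t‖) * ‖x‖ := by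
          gcongr
          exact (norm_apply_le D _).trans hn
      _ = _ := by ring
  exact (LipschitzWith.of_dist_le_mul (K := Real.toNNReal (max R 0 * ‖f‖ * ‖x‖)) (by
    intro s t
    rw [Real.coe_toNNReal _ (by positivity)]
    exact key s t)).continuous

/-- strong continuity of the unitary group. -/
lemma continuous_wave_apply (x : H) : Continuous (fun t => D.wave t x) := by
  refine continuous_of_uniform_approx_of_continuous fun u hu => ?_
  obtain ⟨ε, hε, hu'⟩ := Metric.mem_uniformity_dist.1 hu
  obtain ⟨f, hf, hfx⟩ := D.window x ε hε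
  refine ⟨fun t => D.wave t (D.apply f x), continuous_wave_apply_apply D f hf x, fun t => hu' ?_⟩
  rw [dist_eq_norm, ← map_sub, norm_wave, ← norm_neg, neg_sub]
  exact hfx

/-- joint continuity of the unitary group action. -/
lemma continuous_wave_apply₂ {α : Type*} [TopologicalSpace α] {τ : α → ℝ} {z : α → H}
    (hτ : Continuous τ) (hz : Continuous z) : Continuous (fun a => D.wave (τ a) (z a)) := by
  rw [continuous_iff_continuousAt]
  intro a
  rw [ContinuousAt, Metric.tendsto_nhds]
  intro ε hε
  have h1 : ∀ᶠ b in 𝓝 a, dist (z b) (z a) < ε / 2 :=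
    Metric.tendsto_nhds.1 (hz.tendsto a) _ (by positivity)
  have h2 : ∀ᶠ b in 𝓝 a, dist (D.wave (τ b) (z a)) (D.wave (τ a) (z a)) < ε / 2 :=
    Metric.tendsto_nhds.1 (((continuous_wave_apply D (z a)).comp hτ).tendsto a) _ (by positivity)
  filter_upwards [h1, h2] with b hb1 hb2
  calc dist (D.wave (τ b) (z b)) (D.wave (τ a) (z a))
      ≤ dist (D.wave (τ b) (z b)) (D.wave (τ b) (z a)) + dist (D.wave (τ b) (z a)) (D.wave (τ a) (z a)) :=
        dist_triangle _ _ _
    _ < ε / 2 + ε / 2 := by
        refine add_lt_add ?_ hb2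
        rw [dist_eq_norm, ← map_sub, norm_wave, ← dist_eq_norm]
        exact hb1
    _ = ε := by ring

end LC

end Crest.Agent.Lib.MRec
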