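import Crest.Agent.Lib.MRec.Bump

set_option autoImplicit false
set_option linter.unusedSectionVars false

open Filter MeasureTheory
open scoped Topology InnerProductSpace

namespace Crest.Agent.Lib.MRec

open Crest.OpAlg

variable {H : Type*} [NormedAddCommGroup H] [InnerProductSpace ℂ H] [CompleteSpace H]

namespace MD

variable (S : ModularDatum H)

lemma smul_mem' (M : VonNeumannAlgebra H) {a : H →L[ℂ] H} (ha : a ∈ M) (c : ℂ) : c • a ∈ M :=
  M.toStarSubalgebra.smul_mem ha c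

lemma isSelfAdjoint_real_smul {a : H →L[ℂ] H} (ha : IsSelfAdjoint a) (c : ℝ) :
    IsSelfAdjoint ((c : ℂ) • a) := by
  rw [IsSelfAdjoint, star_smul, ha.star_eq]
  simp

/-- Near-extremal elements for a quadratic form. -/
lemma exists_ext (ω : Ultrafilter ℕ) (T : H →L[ℂ] H) :
    ∃ L : ℝ, 0 ≤ L ∧ (∀ b, b ∈ S.M → IsSelfAdjoint b → Q S.D ω T (b S.vac) ≤ L * ‖b S.vac‖ ^ 2) ∧
      (0 < L → ∃ f, f ∈ S.M ∧ IsSelfAdjoint f ∧ ‖f S.vac‖ = 1 ∧ L / 2 < Q S.D ω T (f S.vac)) := by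
  set 𝒮 : Set ℝ := {r | ∃ b, b ∈ S.M ∧ IsSelfAdjoint b ∧ ‖b S.vac‖ = 1 ∧ r = Q S.D ω T (b S.vac)} with h𝒮
  have hne : 𝒮.Nonempty :=
    ⟨_, 1, one_mem _, IsSelfAdjoint.one _, by simpa using S.norm_vac, rfl⟩
  have hbd : BddAbove 𝒮 := by
    refine ⟨‖T‖ ^ 2, ?_⟩
    rintro r ⟨b, -, -, hb, rfl⟩
    have := Q_le S.D ω T (b S.vac)
    rwa [hb, one_pow, mul_one] at this
  refine ⟨sSup 𝒮, ?_, ?_, ?_⟩
  · obtain ⟨r, hr⟩ := hne
    refine le_trans ?_ (le_csSup hbd hr)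
    obtain ⟨b, -, -, -, rfl⟩ := hr
    exact Q_nonneg S.D ω T _
  · intro b hbM hbs
    by_cases hb0 : b S.vac = 0
    · rw [hb0, Q_zero]
      simp
    · have hn : 0 < ‖b S.vac‖ := norm_pos_iff.2 hb0
      set c : ℝ := ‖b S.vac‖⁻¹ with hc
      have h1 : Q S.D ω T (((c : ℂ) • b) S.vac) ∈ 𝒮 := by
        refine ⟨(c : ℂ) • b, smul_mem' S.M hbM _, isSelfAdjoint_real_smul hbs c, ?_, rfl⟩
        rw [smul_apply, norm_smul, Complex.norm_real, Real.norm_of_nonneg (by positivity), hc]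
        field_simp
      have h2 := le_csSup hbd h1
      rw [smul_apply, Q_smul, Complex.norm_real, Real.norm_of_nonneg (by positivity), hc] at h2
      rw [inv_pow, inv_mul_le_iff₀ (by positivity)] at h2
      linarith [h2]
  · intro hL
    obtain ⟨r, ⟨f, hfM, hfs, hf1, rfl⟩, hr⟩ := exists_lt_of_lt_csSup hne (show sSup 𝒮 / 2 < sSup 𝒮 by linarith)
    exact ⟨f, hfM, hfs, hf1, hr⟩

/-- Lower bound on the extremal constant from the Tomita relation. -/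
lemma le_of_tomita (ω : Ultrafilter ℕ) (T : H →L[ℂ] H) {L : ℝ}
    (hL : ∀ b, b ∈ S.M → IsSelfAdjoint b → Q S.D ω T (b S.vac) ≤ L * ‖b S.vac‖ ^ 2) (hL0 : 0 ≤ L)
    {h y : H} (hh : ‖h‖ = 1) (hy : S.D.HalfExp h y) {E : ℝ} (hE : ‖y‖ ≤ E)
    {c : ℝ} (hc : 0 < c) (hQ : c ≤ Q S.D ω T h) :
    c / 4 ≤ L * (3 + E) ^ 2 := by
  have hE0 : 0 ≤ E := (norm_nonneg _).trans hE
  set K : ℝ := ‖T‖ ^ 2 with hK
  have hK0 : 0 ≤ K := by positivity
  set ε : ℝ := min 1 (c / (4 * (K + 1))) with hε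
  have hε0 : 0 < ε := lt_min one_pos (by positivity)
  have hε1 : ε ≤ 1 := min_le_left _ _
  have hε2 : ε ≤ c / (4 * (K + 1)) := min_le_right _ _
  have hmem := tomita_mem S hy
  obtain ⟨p, ⟨a, rfl⟩, hp⟩ := Metric.mem_closure_iff.1 hmem ε hε0
  have haM : (a : H →L[ℂ] H) ∈ S.M := a.2
  set A : H →L[ℂ] H := (a : H →L[ℂ] H) with hA
  rw [Prod.dist_eq, max_lt_iff] at hp
  obtain ⟨hp1, hp2⟩ := hp
  simp only [dist_eq_norm] at hp1 hp2
  have hstarM : star A ∈ S.M := star_mem haM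
  have hX : ‖A S.vac‖ ≤ 1 + ε := by
    have := norm_sub_norm_le (A S.vac) h
    rw [norm_sub_rev] at this
    linarith [hh, hp1, (norm_sub_norm_le (A S.vac) h)]
  have hJ : ‖S.J y‖ = ‖y‖ := S.J.norm_map y
  have hY : ‖star A S.vac‖ ≤ E + ε := by
    have h1 := norm_sub_norm_le (star A S.vac) (S.J y)
    rw [norm_sub_rev (star A S.vac)] at h1
    linarith
  -- self-adjoint parts
  set b₁ : H →L[ℂ] H := (1 / 2 : ℂ) • (A + star A) with hb₁
  set b₂ : H →L[ℂ] H := (-Complex.I / 2) • (A - star A) with hb₂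
  have hb₁M : b₁ ∈ S.M := smul_mem' S.M (add_mem haM hstarM) _
  have hb₂M : b₂ ∈ S.M := smul_mem' S.M (sub_mem haM hstarM) _
  have hb₁s : IsSelfAdjoint b₁ := by
    rw [IsSelfAdjoint, hb₁, star_smul, star_add, star_star, add_comm]
    congr 1
    simp
  have hb₂s : IsSelfAdjoint b₂ := by
    rw [IsSelfAdjoint, hb₂, star_smul, star_sub, star_star]
    have : star (-Complex.I / 2) = Complex.I / 2 := by
      simp [Complex.conj_I]
    rw [this, ← neg_sub, smul_neg, ← neg_smul]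
    congr 1
    ring
  have hab : A S.vac = b₁ S.vac + Complex.I • b₂ S.vac := by
    simp only [hb₁, hb₂, smul_apply, add_apply, sub_apply, smul_add, smul_sub]
    simp only [smul_smul]
    have e1 : Complex.I * (-Complex.I / 2) = 1 / 2 := by
      have := Complex.I_mul_I
      linear_combination (-1 / 2 : ℂ) * this
    rw [e1]
    have e2 : (1 / 2 : ℂ) • A S.vac + (1 / 2 : ℂ) • A S.vac = A S.vac := by
      rw [← add_smul]; norm_num
    refine e2.symm.trans ?_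
    abel
  have hb₁n : ‖b₁ S.vac‖ ≤ (3 + E) / 2 := by
    rw [hb₁, smul_apply, add_apply, norm_smul]
    have := norm_add_le (A S.vac) (star A S.vac)
    simp only [norm_div, norm_one, Complex.norm_ofNat]
    linarith
  have hb₂n : ‖b₂ S.vac‖ ≤ (3 + E) / 2 := by
    rw [hb₂, smul_apply, sub_apply, norm_smul]
    have := norm_sub_le (A S.vac) (star A S.vac)
    simp only [norm_div, norm_neg, Complex.norm_I, Complex.norm_ofNat]
    linarith
  have hQa : Q S.D ω T (A S.vac) ≤ L * (3 + E) ^ 2 := by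
    have h1 := Q_le_two S.D ω T (A S.vac) (b₁ S.vac)
    have h2 : A S.vac - b₁ S.vac = Complex.I • b₂ S.vac := by
      rw [hab]; abel
    rw [h2, Q_smul, Complex.norm_I, one_pow, one_mul] at h1
    have h3 := hL b₁ hb₁M hb₁s
    have h4 := hL b₂ hb₂M hb₂s
    have h5 : ‖b₁ S.vac‖ ^ 2 ≤ ((3 + E) / 2) ^ 2 := by gcongr
    have h6 : ‖b₂ S.vac‖ ^ 2 ≤ ((3 + E) / 2) ^ 2 := by gcongr
    have h7 := mul_le_mul_of_nonneg_left h5 hL0
    have h8 := mul_le_mul_of_nonneg_left h6 hL0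
    have e : L * (3 + E) ^ 2 = 2 * (L * ((3 + E) / 2) ^ 2) + 2 * (L * ((3 + E) / 2) ^ 2) := by ring
    rw [e]
    linarith
  have hQh : Q S.D ω T h ≤ 2 * (L * (3 + E) ^ 2) + 2 * (K * ε ^ 2) := by
    have h1 := Q_le_two S.D ω T h (A S.vac)
    have h2 := Q_le S.D ω T (h - A S.vac)
    have h3 : ‖h - A S.vac‖ ^ 2 ≤ ε ^ 2 := by
      have : ‖h - A S.vac‖ ≤ ε := hp1.le
      gcongr
    have h4 := mul_le_mul_of_nonneg_left h3 hK0
    linarith
  have hε3 : 2 * (K * ε ^ 2) ≤ c / 2 := by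
    have h1 : ε ^ 2 ≤ c / (4 * (K + 1)) := by
      have : ε ^ 2 ≤ ε := by nlinarith
      linarith
    have h2 := mul_le_mul_of_nonneg_left h1 hK0
    have h3 : K * (c / (4 * (K + 1))) ≤ c / 4 := by
      rw [mul_div_assoc', div_le_div_iff₀ (by positivity) (by norm_num)]
      nlinarith
    linarith
  linarith

lemma list_sum_map_const {α : Type*} (l : List α) (q : α → ℝ) (a : ℝ) (h : ∀ x ∈ l, q x = a) :
    (l.map q).sum = l.length * a := by
  induction l with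
  | nil => simp
  | cons y l ih =>
    simp only [List.map_cons, List.sum_cons, List.length_cons, Nat.cast_succ]
    rw [h y List.mem_cons_self, ih (fun x hx => h x (List.mem_cons_of_mem _ hx))]
    ring

/-- The self-adjoint additive subgroup of `M`. -/
def saGroup (M : VonNeumannAlgebra H) : AddSubgroup (H →L[ℂ] H) where
  carrier := {b | b ∈ M ∧ IsSelfAdjoint b}
  add_mem' := fun ha hb => ⟨add_mem ha.1 hb.1, ha.2.add hb.2⟩
  zero_mem' := ⟨zero_mem _, IsSelfAdjoint.zero _⟩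
  neg_mem' := fun ha => ⟨neg_mem ha.1, ha.2.neg⟩

/-- Evaluation at a vector. -/
def evalHom (v : H) : (H →L[ℂ] H) →+ H where
  toFun := fun F => F v
  map_zero' := rfl
  map_add' := fun _ _ => rfl

/-- A bounded element carrying a fixed proportion of the extremal mass. -/
lemma exists_bounded (herg : S.Ergodic) (ω : Ultrafilter ℕ) (hω : (ω : Filter ℕ) ≤ atTop)
    (T : H →L[ℂ] H) {L : ℝ} (hL0 : 0 < L)
    (hL : ∀ b, b ∈ S.M → IsSelfAdjoint b → Q S.D ω T (b S.vac) ≤ L * ‖b S.vac‖ ^ 2)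
    {f : H →L[ℂ] H} (hfM : f ∈ S.M) (hfs : IsSelfAdjoint f) (hf1 : ‖f S.vac‖ = 1)
    (hfL : L / 2 < Q S.D ω T (f S.vac)) :
    ∃ G, G ∈ S.M ∧ IsSelfAdjoint G ∧ ‖G‖ ≤ 8 ∧ 3 * L / 16 ≤ Q S.D ω T (G S.vac) := by
  set A : ℝ := ‖(f * f) S.vac‖ ^ 2 with hA
  obtain ⟨n, hn⟩ := exists_nat_ge (max 1 A)
  have hn1 : (1 : ℝ) ≤ n := (le_max_left _ _).trans hn
  have hnA : A ≤ n := (le_max_right _ _).trans hn
  set N : ℕ := n ^ 2 with hNdef
  have hN : (N : ℝ) = (n : ℝ) ^ 2 := by rw [hNdef]; push_cast; rfl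
  have hN1 : (1 : ℝ) ≤ N := by rw [hN]; nlinarith
  have hN0 : (0 : ℝ) < N := by linarith
  have hAN : A ≤ N := by rw [hN]; nlinarith
  obtain ⟨l, hl1, hl2, hl3⟩ := exists_list S herg ω hω hfM hfs hf1 N
  have hlA : ∀ x ∈ l, x ∈ saGroup S.M := by
    intro x hx
    obtain ⟨t, rfl⟩ := hl2 x hx
    exact ⟨S.flow_mem t f hfM, isSelfAdjoint_flow S t hfs⟩
  have hlq : ∀ x ∈ l, Q S.D ω T (evalHom S.vac x) = Q S.D ω T (f S.vac) := by
    intro x hx
    obtain ⟨t, rfl⟩ := hl2 x hx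
    change Q S.D ω T (S.flow t f S.vac) = _
    rw [flow_vac, Q_wave S.D ω T hω]
  set β : ℝ := L / 32 with hβ
  have hβ0 : 0 < β := by positivity
  set g : (H →L[ℂ] H) → ℝ := fun F => (1 / (N : ℝ)) * Q S.D ω T (evalHom S.vac F) +
    (-β / (N : ℝ) ^ 2) * ‖(F * F) S.vac‖ ^ 2 with hg
  obtain ⟨F, hFA, hFg⟩ := exists_ge_signAvg (saGroup S.M) l hlA g
  have havg : signAvg l g = (1 / (N : ℝ)) * ((N : ℝ) * Q S.D ω T (f S.vac)) +
      (-β / (N : ℝ) ^ 2) * m4 S.vac l := by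
    rw [hg, signAvg_add, signAvg_const_mul, signAvg_const_mul,
      signAvg_quad (Q_parallelogram S.D ω T) (Q_zero S.D ω T),
      list_sum_map_const _ _ _ hlq, hl1]
    rfl
  have hlow : Q S.D ω T (f S.vac) - 4 * β ≤ signAvg l g := by
    rw [havg]
    have e1 : (1 / (N : ℝ)) * ((N : ℝ) * Q S.D ω T (f S.vac)) = Q S.D ω T (f S.vac) := by
      field_simp
    have h2 : (β / (N : ℝ) ^ 2) * m4 S.vac l ≤ 4 * β := by
      have h3 : m4 S.vac l ≤ 4 * (N : ℝ) ^ 2 := by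
        refine hl3.trans ?_
        have : (N : ℝ) * A ≤ (N : ℝ) * (N : ℝ) := by gcongr
        nlinarith
      calc (β / (N : ℝ) ^ 2) * m4 S.vac l ≤ (β / (N : ℝ) ^ 2) * (4 * (N : ℝ) ^ 2) := by gcongr
        _ = 4 * β := by field_simp
    have e2 : (-β / (N : ℝ) ^ 2) * m4 S.vac l = -((β / (N : ℝ) ^ 2) * m4 S.vac l) := by ring
    rw [e1, e2]
    linarith
  -- rescale
  set c : ℝ := (n : ℝ)⁻¹ with hc
  have hc0 : 0 < c := by positivity
  set F' : H →L[ℂ] H := (c : ℂ) • F with hF'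
  have hF'M : F' ∈ S.M := smul_mem' S.M hFA.1 _
  have hF's : IsSelfAdjoint F' := isSelfAdjoint_real_smul hFA.2 c
  have hF'q : Q S.D ω T (F' S.vac) = (1 / (N : ℝ)) * Q S.D ω T (evalHom S.vac F) := by
    rw [hF', smul_apply, Q_smul, Complex.norm_real, Real.norm_of_nonneg hc0.le, hN, hc]
    congr 1
    field_simp
  have hF'm : ‖(F' * F') S.vac‖ ^ 2 = (1 / (N : ℝ) ^ 2) * ‖(F * F) S.vac‖ ^ 2 := by
    have e : F' * F' = ((c : ℂ) * (c : ℂ)) • (F * F) := by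
      rw [hF', smul_mul_smul_comm]
    rw [e, smul_apply, norm_smul, mul_pow, norm_mul, Complex.norm_real,
      Real.norm_of_nonneg hc0.le, hN, hc]
    congr 1
    field_simp
  set m : ℝ := ‖(F' * F') S.vac‖ ^ 2 with hm
  have hm0 : 0 ≤ m := by positivity
  have hgF : g F = Q S.D ω T (F' S.vac) - β * m := by
    rw [hg, hF'q, hF'm]
    simp only
    ring
  have hmain : 3 * L / 8 ≤ Q S.D ω T (F' S.vac) - β * m := by
    rw [← hgF]
    have : L / 2 - 4 * β ≤ g F := by linarith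
    have e : L / 2 - 4 * β = 3 * L / 8 := by rw [hβ]; ring
    linarith
  obtain ⟨G, hGM, hGs, hG8, hGt⟩ := exists_trunc S.M hF'M hF's (C := 8) (by norm_num) S.vac
  refine ⟨G, hGM, hGs, hG8, ?_⟩
  have h1 := Q_le_two S.D ω T (F' S.vac) (G S.vac)
  have h2 := hL (F' - G) (sub_mem hF'M hGM) (hF's.sub hGs)
  rw [sub_apply] at h2 hGt
  have h3 : L * ‖F' S.vac - G S.vac‖ ^ 2 ≤ L * (m / 8 ^ 2) := by gcongr
  have e : L * (m / 8 ^ 2) = (β * m) / 2 := by rw [hβ]; ring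
  rw [e] at h3
  have e' : 3 * L / 16 = (3 * L / 8) / 2 := by ring
  rw [e']
  linarith

/-- Smearing an element of `M` implements a multiplier on the vacuum orbit. -/
lemma exists_smoothed (ρ : BoundedContinuousFunction ℝ ℂ) (W : ℝ → ℂ) (hW : Integrable W)
    (τ : ℝ → ℝ) (hτ : Continuous τ)
    (hρ : ∀ u : ℝ, ∫ w : ℝ, W w * Complex.exp (Complex.I * ((τ w * u : ℝ) : ℂ)) = ρ u)
    {v : H →L[ℂ] H} (hv : v ∈ S.M) :
    ∃ B, B ∈ S.M ∧ ‖B‖ ≤ ‖v‖ * (∫ w, ‖W w‖) ∧ B S.vac = S.D.apply ρ (v S.vac) := by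
  obtain ⟨B, hB1, hB2⟩ := exists_smear volume W hW (fun w => S.flow (τ w) v) (C := ‖v‖)
    (fun w => norm_flow_le S _ v) (fun y => continuous_flow_apply S hτ v y)
  refine ⟨B, smear_mem S.M volume W hW _ (C := ‖v‖) (fun w => norm_flow_le S _ v)
    (fun y => continuous_flow_apply S hτ v y) (fun w => S.flow_mem _ v hv) B hB2, hB1, ?_⟩
  rw [hB2, LC.apply_eq_integral S.D ρ W hW τ hτ hρ]
  refine integral_congr_ae (Eventually.of_forall fun w => ?_)
  simp only [flow_vac]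

/-- The vector `exp(D/2) h` for a spectrally localized `h`. -/
lemma exists_halfExp {s δ : ℝ} (hδ : 0 < δ) {h : H}
    (hband : S.D.SupportedIn (Set.Icc (s - δ) (s + δ)) h) :
    ∃ y, S.D.HalfExp h y ∧ ‖y‖ ≤ Real.exp ((s + δ) / 2) * ‖h‖ := by
  set cl : ℝ → ℝ := fun u => max (s - δ) (min u (s + δ)) with hcl
  have hclc : Continuous cl := by fun_prop
  have hcl1 : ∀ u, cl u ≤ s + δ := fun u => max_le (by linarith) (min_le_right _ _)
  let g : BoundedContinuousFunction ℝ ℂ :=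
    BoundedContinuousFunction.ofNormedAddCommGroup
      (fun u : ℝ => ((Real.exp (cl u / 2) : ℝ) : ℂ)) (by
        have := hclc
        fun_prop) (Real.exp ((s + δ) / 2)) (fun u => by
        rw [Complex.norm_real, Real.norm_of_nonneg (Real.exp_pos _).le]
        exact Real.exp_le_exp.2 (by linarith [hcl1 u]))
  have hg : ∀ u, g u = ((Real.exp (cl u / 2) : ℝ) : ℂ) := fun u => rfl
  have hgn : ‖g‖ ≤ Real.exp ((s + δ) / 2) :=
    (BoundedContinuousFunction.norm_le (Real.exp_pos _).le).2 fun u => by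
      rw [hg, Complex.norm_real, Real.norm_of_nonneg (Real.exp_pos _).le]
      exact Real.exp_le_exp.2 (by linarith [hcl1 u])
  refine ⟨S.D.apply g h, ?_, ?_⟩
  · intro f₁ f₂ hf
    have e : S.D.apply f₁ (S.D.apply g h) = S.D.apply (f₁ * g) h := by
      rw [LC.apply_mul]; rfl
    rw [e]
    refine LC.apply_eq_of_supported S.D hband fun u hu => ?_
    have hcu : cl u = u := by
      rw [hcl]
      simp only
      rw [min_eq_left hu.2, max_eq_right hu.1]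
    rw [hf, BoundedContinuousFunction.coe_mul, Pi.mul_apply, hg, hcu]
  · calc ‖S.D.apply g h‖ ≤ ‖S.D.apply g‖ * ‖h‖ := ContinuousLinearMap.le_opNorm _ _
      _ ≤ Real.exp ((s + δ) / 2) * ‖h‖ := by
        gcongr
        exact (LC.norm_apply_le S.D g).trans hgn

/-- The bound for a single localized vector. -/
theorem core (herg : S.Ergodic) (ω : Ultrafilter ℕ) (hω : (ω : Filter ℕ) ≤ atTop)
    (T : H →L[ℂ] H) {s δ : ℝ} (hδ : 0 < δ) (hδ1 : δ ≤ 1)
    (ρ : BoundedContinuousFunction ℝ ℂ) (W : ℝ → ℂ) (τ : ℝ → ℝ)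
    (hρ1 : ∀ u ∈ Set.Icc (s - δ) (s + δ), ρ u = 1)
    (hρ0 : ∀ u, u ∉ Set.Icc (s - 2 * δ) (s + 2 * δ) → ρ u = 0)
    (hW : Integrable W) (hτ : Continuous τ)
    (hρ : ∀ u : ℝ, ∫ w : ℝ, W w * Complex.exp (Complex.I * ((τ w * u : ℝ) : ℂ)) = ρ u)
    {h : H} (hh : ‖h‖ = 1) (hband : S.D.SupportedIn (Set.Icc (s - δ) (s + δ)) h)
    {c : ℝ} (hc : 0 < c) (hQ : c ≤ Q S.D ω T h) :
    ∃ v, v ∈ S.M ∧ ‖v‖ ≤ 8 * (∫ w, ‖W w‖) ∧
      (3 / 32) * ((c / 4) / (3 + Real.exp ((s + 1) / 2)) ^ 2) ≤ ‖T (v S.vac)‖ ^ 2 ∧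
      S.D.SupportedIn (Set.Icc (s - 2 * δ) (s + 2 * δ)) (v S.vac) := by
  set R : H →L[ℂ] H := S.D.apply ρ with hR
  have hRc : ∀ t, R * S.D.wave t = S.D.wave t * R := fun t => LC.apply_comm_wave S.D ρ t
  have hRh : R h = h := by
    have := LC.apply_eq_of_supported S.D hband (f := ρ) (g := 1) (fun u hu => by simpa using hρ1 u hu)
    rw [LC.apply_one] at this
    simpa using this
  set T' : H →L[ℂ] H := T * R with hT'
  obtain ⟨L, hL0, hL, hLe⟩ := exists_ext S ω T'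
  obtain ⟨y, hy, hyn⟩ := exists_halfExp S hδ hband
  set E : ℝ := Real.exp ((s + 1) / 2) with hE
  have hE0 : 0 < E := Real.exp_pos _
  have hyE : ‖y‖ ≤ E := by
    rw [hh, mul_one] at hyn
    exact hyn.trans (Real.exp_le_exp.2 (by linarith))
  have hQ' : c ≤ Q S.D ω T' h := by
    rw [hT', Q_comp S.D ω T R hRc, hRh]
    exact hQ
  have hlow := le_of_tomita S ω T' hL hL0 hh hy hyE hc hQ'
  have h3E : 0 < (3 + E) ^ 2 := by positivity
  have hLpos : 0 < L := by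
    by_contra hcon
    have : L = 0 := le_antisymm (not_lt.1 hcon) hL0
    rw [this, zero_mul] at hlow
    linarith
  obtain ⟨f, hfM, hfs, hf1, hfL⟩ := hLe hLpos
  obtain ⟨G, hGM, -, hG8, hGq⟩ := exists_bounded S herg ω hω T' hLpos hL hfM hfs hf1 hfL
  obtain ⟨B, hBM, hBn, hBv⟩ := exists_smoothed S ρ W hW τ hτ hρ hGM
  have hQB : 3 * L / 16 ≤ Q S.D ω T (B S.vac) := by
    rw [hBv]
    rw [hT', Q_comp S.D ω T R hRc] at hGq
    exact hGq
  obtain ⟨t, ht⟩ := exists_time S.D ω T (B S.vac) (lt_of_lt_of_le (by positivity) hQB) hω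
  refine ⟨S.flow t B, S.flow_mem t B hBM, ?_, ?_, ?_⟩
  · have hI : 0 ≤ ∫ w, ‖W w‖ := integral_nonneg fun _ => norm_nonneg _
    calc ‖S.flow t B‖ ≤ ‖B‖ := norm_flow_le S t B
      _ ≤ ‖G‖ * (∫ w, ‖W w‖) := hBn
      _ ≤ 8 * (∫ w, ‖W w‖) := by gcongr
  · rw [flow_vac]
    have h1 : (c / 4) / (3 + E) ^ 2 ≤ L := by
      rw [div_le_iff₀ h3E]
      exact hlow
    have : 3 * L / 32 < ‖T (S.D.wave t (B S.vac))‖ ^ 2 := by
      refine lt_of_le_of_lt ?_ ht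
      linarith
    linarith
  · rw [flow_vac, hBv]
    exact LC.supported_wave S.D (LC.supported_apply S.D hρ0 _) t

end MD

/-- Rescaled and translated bump. -/
lemma exists_scaled_bump {ρ₀ : ℝ → ℝ} {κ : ℝ → ℂ} (hc : Continuous ρ₀) (h2 : ∀ u, |u| ≤ 1 → ρ₀ u = 1)
    (h3 : ∀ u, 2 ≤ |u| → ρ₀ u = 0) (h0 : ∀ u, 0 ≤ ρ₀ u) (h1 : ∀ u, ρ₀ u ≤ 1) (hκ : Integrable κ)
    (hF : ∀ u : ℝ, ∫ w : ℝ, Complex.exp (Complex.I * ((2 * Real.pi * w * u : ℝ) : ℂ)) * κ w = (ρ₀ u : ℂ))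
    (s δ : ℝ) (hδ : 0 < δ) :
    ∃ (ρ : BoundedContinuousFunction ℝ ℂ) (W : ℝ → ℂ) (τ : ℝ → ℝ),
      (∀ u ∈ Set.Icc (s - δ) (s + δ), ρ u = 1) ∧
      (∀ u, u ∉ Set.Icc (s - 2 * δ) (s + 2 * δ) → ρ u = 0) ∧
      Integrable W ∧ (∫ w, ‖W w‖) = (∫ w, ‖κ w‖) ∧ Continuous τ ∧
      ∀ u : ℝ, ∫ w : ℝ, W w * Complex.exp (Complex.I * ((τ w * u : ℝ) : ℂ)) = ρ u := by
  let ρ : BoundedContinuousFunction ℝ ℂ :=
    BoundedContinuousFunction.ofNormedAddCommGroup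
      (fun u : ℝ => ((ρ₀ ((u - s) / δ) : ℝ) : ℂ)) (by
        have := hc
        fun_prop) 1 (fun u => by
        rw [Complex.norm_real, Real.norm_of_nonneg (h0 _)]
        exact h1 _)
  have hρ : ∀ u, ρ u = ((ρ₀ ((u - s) / δ) : ℝ) : ℂ) := fun u => rfl
  set τ : ℝ → ℝ := fun w => 2 * Real.pi * w / δ with hτ
  set W : ℝ → ℂ := fun w => κ w * Complex.exp (Complex.I * ((-(τ w * s) : ℝ) : ℂ)) with hW
  have hτc : Continuous τ := by fun_prop
  have hWn : ∀ w, ‖W w‖ = ‖κ w‖ := fun w => by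
    rw [hW]
    simp only
    rw [norm_mul, Complex.norm_exp_I_mul_ofReal, mul_one]
  refine ⟨ρ, W, τ, fun u hu => ?_, fun u hu => ?_, ?_, ?_, hτc, fun u => ?_⟩
  · rw [hρ, h2]
    · simp
    · rw [abs_div, abs_of_pos hδ, div_le_one hδ, abs_le]
      constructor <;> linarith [hu.1, hu.2]
  · rw [hρ, h3]
    · simp
    · rw [abs_div, abs_of_pos hδ, le_div_iff₀ hδ]
      by_contra hcon
      have hcon' := not_le.1 hcon
      rw [abs_lt] at hcon'
      exact hu ⟨by linarith [hcon'.1], by linarith [hcon'.2]⟩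
  · refine hκ.mono ?_ (Eventually.of_forall fun w => (hWn w).le)
    refine hκ.aestronglyMeasurable.mul (Continuous.aestronglyMeasurable ?_)
    fun_prop
  · exact integral_congr_ae (Eventually.of_forall hWn)
  · rw [hρ, ← hF]
    refine integral_congr_ae (Eventually.of_forall fun w => ?_)
    simp only [hW]
    rw [mul_comm (κ w), mul_assoc, mul_comm (κ w), ← mul_assoc, ← Complex.exp_add, mul_comm (Complex.exp _ ) (κ w)]
    rw [mul_comm (κ w)]
    congr 2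
    rw [← mul_add]
    congr 1
    rw [hτ]
    push_cast
    field_simp
    ring

end Crest.Agent.Lib.MRec
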