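import Crest.Agent.Lib.MRec.Smear

set_option autoImplicit false
set_option linter.unusedSectionVars false

open Filter MeasureTheory
open scoped Topology InnerProductSpace

namespace Crest.Agent.Lib.MRec

open Crest.OpAlg

variable {H : Type*} [NormedAddCommGroup H] [InnerProductSpace ℂ H] [CompleteSpace H]

namespace MD

variable (S : ModularDatum H)

lemma continuous_inner_flow (a : H →L[ℂ] H) (x y : H) :
    Continuous fun t => ⟪x, S.flow t a y⟫_ℂ :=
  continuous_const.inner (continuous_flow_apply S continuous_id a y)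

/-- The averaged operators. -/
lemma exists_meanOp (a : H →L[ℂ] H) (k : ℕ) :
    ∃ B : H →L[ℂ] H, ‖B‖ ≤ ‖a‖ ∧ (a ∈ S.M → B ∈ S.M) ∧
      ∀ x y, ⟪x, B y⟫_ℂ = vmean (fun t => ⟪x, S.flow t a y⟫_ℂ) k := by
  set w : ℝ → ℂ := fun _ => (((2 * (k : ℝ))⁻¹ : ℝ) : ℂ) with hw
  set μ : Measure ℝ := volume.restrict (Set.Icc (-(k : ℝ)) (k : ℝ)) with hμ
  have hfin : IsFiniteMeasure μ :=
    ⟨by rw [hμ, Measure.restrict_apply_univ, Real.volume_Icc]; exact ENNReal.ofReal_lt_top⟩
  have hwi : Integrable w μ := integrable_const _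
  obtain ⟨B, hB1, hB2⟩ := exists_smear μ w hwi (fun t => S.flow t a) (fun t => norm_flow_le S t a)
    (fun y => continuous_flow_apply S continuous_id a y)
  have hnorm : ∫ t, ‖w t‖ ∂μ ≤ 1 := by
    rcases Nat.eq_zero_or_pos k with rfl | hk
    · simp [hw]
    have hk' : (0 : ℝ) < k := by exact_mod_cast hk
    have hn : ∀ t, ‖w t‖ = (2 * (k : ℝ))⁻¹ := fun t => by
      simp only [hw, Complex.norm_real, Real.norm_eq_abs]
      exact abs_of_pos (by positivity)
    simp only [hn, hμ, integral_const, smul_eq_mul, measureReal_restrict_apply_univ]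
    rw [Real.volume_real_Icc_of_le (by linarith)]
    apply le_of_eq
    field_simp
    ring
  refine ⟨B, ?_, fun ha => ?_, fun x y => ?_⟩
  · calc ‖B‖ ≤ _ := hB1
      _ ≤ ‖a‖ * 1 := by gcongr
      _ = ‖a‖ := mul_one _
  · exact smear_mem S.M μ w hwi _ (fun t => norm_flow_le S t a)
      (fun y => continuous_flow_apply S continuous_id a y) (fun t => S.flow_mem t a ha) B hB2
  · have hint : Integrable (fun t => S.flow t a y) μ := by
      have h1 : Continuous fun t => S.flow t a y := continuous_flow_apply S continuous_id a y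
      exact h1.continuousOn.integrableOn_compact isCompact_Icc
    rw [hB2, vmean]
    have h3 : ∫ t, w t • S.flow t a y ∂μ = (((2 * (k : ℝ))⁻¹ : ℝ) : ℂ) • ∫ t, S.flow t a y ∂μ := by
      rw [integral_smul]
    rw [h3, inner_smul_right, ← integral_inner hint x, Complex.real_smul]

theorem ergodic_mean (herg : S.Ergodic) (ω : Ultrafilter ℕ) (hω : (ω : Filter ℕ) ≤ atTop)
    (a : H →L[ℂ] H) (ha : a ∈ S.M) (x y : H) :
    Tendsto (fun k => vmean (fun t => ⟪x, S.flow t a y⟫_ℂ) k) (ω : Filter ℕ)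
      (𝓝 (⟪S.vac, a S.vac⟫_ℂ * ⟪x, y⟫_ℂ)) := by
  choose A hA1 hA2 hA3 using exists_meanOp S a
  obtain ⟨B, hB⟩ := exists_wot_limit ω A hA1
  have hBM : B ∈ S.M := wot_limit_mem ω S.M A (fun k => hA2 k ha) B hB
  have hB' : ∀ x y, Tendsto (fun k => vmean (fun t => ⟪x, S.flow t a y⟫_ℂ) k) (ω : Filter ℕ)
      (𝓝 ⟪x, B y⟫_ℂ) := fun x y => by
    simpa only [hA3] using hB x y
  -- B is fixed by the flow
  have hfix : ∀ τ, S.flow τ B = B := by
    intro τ
    refine ContinuousLinearMap.ext fun y => ext_inner_left ℂ fun x => ?_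
    rw [inner_flow]
    have h1 := hB' (S.D.wave (-τ) x) (S.D.wave (-τ) y)
    have h2 : ∀ t, ⟪S.D.wave (-τ) x, S.flow t a (S.D.wave (-τ) y)⟫_ℂ =
        ⟪x, S.flow (t + τ) a y⟫_ℂ := by
      intro t
      rw [add_comm t τ, flow_add, flow_apply S τ, LC.inner_wave_right, LC.inner_wave_left, neg_neg]
    simp only [h2] at h1
    refine tendsto_nhds_unique h1 ?_
    have hg : Continuous fun t => ⟪x, S.flow t a y⟫_ℂ := continuous_inner_flow S a x y
    have hbd : ∀ t, ‖⟪x, S.flow t a y⟫_ℂ‖ ≤ ‖x‖ * (‖a‖ * ‖y‖) := fun t => by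
      refine (norm_inner_le_norm _ _).trans ?_
      gcongr
      exact ((S.flow t a).le_opNorm y).trans (by gcongr; exact norm_flow_le S t a)
    have h3 : Tendsto (fun k : ℕ => (2 * (k : ℝ))⁻¹ * (2 * ((‖x‖ * (‖a‖ * ‖y‖)) * |τ|)))
        (ω : Filter ℕ) (𝓝 0) := by
      have h4 : Tendsto (fun k : ℕ => (2 * (k : ℝ))⁻¹) atTop (𝓝 0) := by
        have : Tendsto (fun k : ℕ => (2 * (k : ℝ))) atTop atTop :=
          tendsto_natCast_atTop_atTop.const_mul_atTop (by norm_num)
        exact tendsto_inv_atTop_zero.comp this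
      have := (h4.mono_left hω).mul_const (2 * ((‖x‖ * (‖a‖ * ‖y‖)) * |τ|))
      simpa using this
    have h5 : Tendsto (fun k => vmean (fun t => ⟪x, S.flow (t + τ) a y⟫_ℂ) k -
        vmean (fun t => ⟪x, S.flow t a y⟫_ℂ) k) (ω : Filter ℕ) (𝓝 0) := by
      refine squeeze_zero_norm (fun k => ?_) h3
      exact norm_vmean_shift_sub_le hg hbd τ k
    have h6 := h5.add (hB' x y)
    simpa using h6
  obtain ⟨c, hc⟩ := herg B hBM hfix
  -- identify the constant
  have hcval : c = ⟪S.vac, a S.vac⟫_ℂ := by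
    have h1 := hB' S.vac S.vac
    have h2 : ∀ t, ⟪S.vac, S.flow t a S.vac⟫_ℂ = ⟪S.vac, a S.vac⟫_ℂ := fun t => by
      rw [flow_vac, LC.inner_wave_right, wave_vac]
    simp only [h2] at h1
    have h3 : ∀ᶠ k : ℕ in (ω : Filter ℕ), vmean (fun _ : ℝ => ⟪S.vac, a S.vac⟫_ℂ) k = ⟪S.vac, a S.vac⟫_ℂ := by
      filter_upwards [hω (eventually_ne_atTop 0)] with k hk
      exact vmean_const _ hk
    have h4 : Tendsto (fun k => vmean (fun _ : ℝ => ⟪S.vac, a S.vac⟫_ℂ) k) (ω : Filter ℕ)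
        (𝓝 ⟪S.vac, a S.vac⟫_ℂ) :=
      tendsto_const_nhds.congr' (h3.mono fun k hk => hk.symm)
    have h5 := tendsto_nhds_unique h1 h4
    rw [hc] at h5
    simp only [smul_apply, one_apply_eq_self, inner_smul_right,
      inner_self_eq_norm_sq_to_K, S.norm_vac] at h5
    simpa using h5
  have := hB' x y
  rw [hc, hcval] at this
  simpa [inner_smul_right] using this

/-- Same with the reversed flow (the window is symmetric). -/
theorem ergodic_mean_neg (herg : S.Ergodic) (ω : Ultrafilter ℕ) (hω : (ω : Filter ℕ) ≤ atTop)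
    (a : H →L[ℂ] H) (ha : a ∈ S.M) (x y : H) :
    Tendsto (fun k => vmean (fun t => ⟪x, S.flow (-t) a y⟫_ℂ) k) (ω : Filter ℕ)
      (𝓝 (⟪S.vac, a S.vac⟫_ℂ * ⟪x, y⟫_ℂ)) := by
  simp only [vmean_neg (fun t => ⟪x, S.flow t a y⟫_ℂ)]
  exact ergodic_mean S herg ω hω a ha x y

end MD

end Crest.Agent.Lib.MRec
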