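import Crest.Agent.Lib.MRec.Vac

set_option autoImplicit false
set_option linter.unusedSectionVars false

open Filter MeasureTheory
open scoped Topology InnerProductSpace

namespace Crest.Agent.Lib.MRec

open Crest.OpAlg

section vmean

variable {E : Type*} [NormedAddCommGroup E] [NormedSpace ℝ E] [CompleteSpace E]

/-- Window average of a vector-valued function. -/
noncomputable def vmean (g : ℝ → E) (k : ℕ) : E :=
  ((2 * (k : ℝ))⁻¹ : ℝ) • ∫ t in Set.Icc (-(k : ℝ)) (k : ℝ), g t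

lemma intOn {g : ℝ → E} (hg : Continuous g) (k : ℕ) :
    IntegrableOn g (Set.Icc (-(k : ℝ)) (k : ℝ)) :=
  hg.continuousOn.integrableOn_compact isCompact_Icc

lemma vmean_add {g₁ g₂ : ℝ → E} (h₁ : Continuous g₁) (h₂ : Continuous g₂) (k : ℕ) :
    vmean (fun t => g₁ t + g₂ t) k = vmean g₁ k + vmean g₂ k := by
  simp only [vmean]
  rw [integral_add (intOn h₁ k) (intOn h₂ k), smul_add]

lemma vmean_const (c : E) {k : ℕ} (hk : k ≠ 0) : vmean (fun _ => c) k = c := by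
  have hk' : (k : ℝ) ≠ 0 := by exact_mod_cast hk
  have hk'' : (0 : ℝ) ≤ k := by positivity
  simp only [vmean, setIntegral_const]
  rw [smul_smul]
  have : volume.real (Set.Icc (-(k : ℝ)) (k : ℝ)) = 2 * k := by
    rw [Real.volume_real_Icc_of_le (by linarith)]
    ring
  rw [this, inv_mul_cancel₀ (by positivity), one_smul]

lemma vmean_smul {g : ℝ → E} (c : ℝ) (k : ℕ) : vmean (fun t => c • g t) k = c • vmean g k := by
  simp only [vmean]
  rw [integral_smul, smul_comm]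

lemma vmean_map {F : Type*} [NormedAddCommGroup F] [NormedSpace ℝ F] [CompleteSpace F]
    (L : E →L[ℝ] F) {g : ℝ → E} (hg : Continuous g) (k : ℕ) :
    L (vmean g k) = vmean (fun t => L (g t)) k := by
  simp only [vmean]
  rw [map_smul, ContinuousLinearMap.integral_comp_comm L (intOn hg k)]

lemma norm_vmean_le {g : ℝ → E} {B : ℝ} (hB : ∀ t, ‖g t‖ ≤ B) (k : ℕ) : ‖vmean g k‖ ≤ B := by
  have hB0 : 0 ≤ B := (norm_nonneg _).trans (hB 0)
  rcases Nat.eq_zero_or_pos k with rfl | hk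
  · simp [vmean, hB0]
  have hk' : (0 : ℝ) < k := by exact_mod_cast hk
  simp only [vmean]
  rw [norm_smul, Real.norm_of_nonneg (by positivity)]
  have h1 : ‖∫ t in Set.Icc (-(k : ℝ)) (k : ℝ), g t‖ ≤ B * volume.real (Set.Icc (-(k : ℝ)) (k : ℝ)) :=
    norm_setIntegral_le_of_norm_le_const (by simp) (fun t _ => hB t)
  rw [Real.volume_real_Icc_of_le (by linarith)] at h1
  calc _ ≤ (2 * (k : ℝ))⁻¹ * (B * ((k : ℝ) - -(k : ℝ))) := by gcongr
    _ = B := by field_simp; ring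

lemma vmean_eq_intervalIntegral (g : ℝ → E) (k : ℕ) :
    vmean g k = ((2 * (k : ℝ))⁻¹ : ℝ) • ∫ t in (-(k : ℝ))..(k : ℝ), g t := by
  have hk : -(k : ℝ) ≤ k := by
    have : (0 : ℝ) ≤ k := by positivity
    linarith
  rw [vmean, integral_Icc_eq_integral_Ioc, intervalIntegral.integral_of_le hk]

lemma vmean_neg (g : ℝ → E) (k : ℕ) : vmean (fun t => g (-t)) k = vmean g k := by
  rw [vmean_eq_intervalIntegral, vmean_eq_intervalIntegral, intervalIntegral.integral_comp_neg]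
  simp

/-- Shift invariance of window averages up to an error tending to zero. -/
lemma norm_vmean_shift_sub_le {g : ℝ → E} (hg : Continuous g) {B : ℝ} (hB : ∀ t, ‖g t‖ ≤ B)
    (τ : ℝ) (k : ℕ) :
    ‖vmean (fun t => g (t + τ)) k - vmean g k‖ ≤ (2 * k : ℝ)⁻¹ * (2 * (B * |τ|)) := by
  have hi : ∀ a b : ℝ, IntervalIntegrable g volume a b := fun a b => hg.intervalIntegrable a b
  rw [vmean_eq_intervalIntegral, vmean_eq_intervalIntegral, ← smul_sub,
    intervalIntegral.integral_comp_add_right, norm_smul,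
    Real.norm_of_nonneg (by positivity)]
  refine mul_le_mul_of_nonneg_left ?_ (by positivity)
  rw [intervalIntegral.integral_interval_sub_interval_comm' (hi _ _) (hi _ _) (hi _ _)]
  have h1 : ∀ a b : ℝ, ‖∫ t in a..b, g t‖ ≤ B * |b - a| := fun a b =>
    intervalIntegral.norm_integral_le_of_norm_le_const (fun t _ => hB t)
  refine (norm_sub_le _ _).trans ?_
  have h2 := h1 (k : ℝ) (k + τ)
  have h3 := h1 (-(k : ℝ)) (-k + τ)
  simp only [add_sub_cancel_left] at h2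
  have h4 : -(k : ℝ) + τ - -(k : ℝ) = τ := by ring
  rw [h4] at h3
  linarith

end vmean

section ultra

/-- bounded sequences converge along ultrafilters. -/
lemma exists_tendsto_ultra (ω : Ultrafilter ℕ) (s : ℕ → ℂ) {C : ℝ} (hs : ∀ k, ‖s k‖ ≤ C) :
    ∃ z : ℂ, ‖z‖ ≤ C ∧ Tendsto s (ω : Filter ℕ) (𝓝 z) := by
  have hc : IsCompact (Metric.closedBall (0 : ℂ) C) := isCompact_closedBall _ _
  have hle : (ω.map s : Filter ℂ) ≤ 𝓟 (Metric.closedBall (0 : ℂ) C) := by
    rw [le_principal_iff]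
    refine Filter.mem_map.2 (Filter.Eventually.of_forall fun k => ?_)
    simpa using hs k
  obtain ⟨z, hz, hzl⟩ := hc.ultrafilter_le_nhds (ω.map s) hle
  exact ⟨z, by simpa using hz, hzl⟩

lemma exists_tendsto_ultra_real (ω : Ultrafilter ℕ) (s : ℕ → ℝ) {C : ℝ} (hs : ∀ k, ‖s k‖ ≤ C) :
    ∃ z : ℝ, ‖z‖ ≤ C ∧ Tendsto s (ω : Filter ℕ) (𝓝 z) := by
  have hc : IsCompact (Metric.closedBall (0 : ℝ) C) := isCompact_closedBall _ _
  have hle : (ω.map s : Filter ℝ) ≤ 𝓟 (Metric.closedBall (0 : ℝ) C) := by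
    rw [le_principal_iff]
    refine Filter.mem_map.2 (Filter.Eventually.of_forall fun k => ?_)
    simpa using hs k
  obtain ⟨z, hz, hzl⟩ := hc.ultrafilter_le_nhds (ω.map s) hle
  exact ⟨z, by simpa using hz, hzl⟩

variable {H : Type*} [NormedAddCommGroup H] [InnerProductSpace ℂ H] [CompleteSpace H]

/-- WOT ultralimits of bounded operator sequences. -/
lemma exists_wot_limit (ω : Ultrafilter ℕ) (A : ℕ → H →L[ℂ] H) {C : ℝ} (hA : ∀ k, ‖A k‖ ≤ C) :
    ∃ B : H →L[ℂ] H, ∀ x y, Tendsto (fun k => ⟪x, A k y⟫_ℂ) (ω : Filter ℕ) (𝓝 ⟪x, B y⟫_ℂ) := by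
  have hC : 0 ≤ C := (norm_nonneg _).trans (hA 0)
  have hb : ∀ x y k, ‖⟪x, A k y⟫_ℂ‖ ≤ C * ‖x‖ * ‖y‖ := fun x y k => by
    calc _ ≤ ‖x‖ * ‖A k y‖ := norm_inner_le_norm x _
      _ ≤ ‖x‖ * (‖A k‖ * ‖y‖) := by gcongr; exact (A k).le_opNorm y
      _ ≤ ‖x‖ * (C * ‖y‖) := by gcongr; exact hA k
      _ = _ := by ring
  have hex : ∀ x y, ∃ z : ℂ, ‖z‖ ≤ C * ‖x‖ * ‖y‖ ∧
      Tendsto (fun k => ⟪x, A k y⟫_ℂ) (ω : Filter ℕ) (𝓝 z) := fun x y =>
    exists_tendsto_ultra ω _ (hb x y)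
  choose L hL1 hL2 using hex
  have hadd1 : ∀ x₁ x₂ y, L (x₁ + x₂) y = L x₁ y + L x₂ y := fun x₁ x₂ y => by
    refine tendsto_nhds_unique (hL2 (x₁ + x₂) y) ?_
    simpa [inner_add_left] using (hL2 x₁ y).add (hL2 x₂ y)
  have hsmul1 : ∀ (c : ℂ) x y, L (c • x) y = (starRingEnd ℂ) c * L x y := fun c x y => by
    refine tendsto_nhds_unique (hL2 (c • x) y) ?_
    have := (hL2 x y).const_mul ((starRingEnd ℂ) c)
    refine this.congr fun k => ?_
    rw [inner_smul_left]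
  have hadd2 : ∀ x y₁ y₂, L x (y₁ + y₂) = L x y₁ + L x y₂ := fun x y₁ y₂ => by
    refine tendsto_nhds_unique (hL2 x (y₁ + y₂)) ?_
    simpa [inner_add_right] using (hL2 x y₁).add (hL2 x y₂)
  have hsmul2 : ∀ (c : ℂ) x y, L x (c • y) = c * L x y := fun c x y => by
    refine tendsto_nhds_unique (hL2 x (c • y)) ?_
    simpa [inner_smul_right] using (hL2 x y).const_mul c
  let B₀ : H →ₗ⋆[ℂ] H →ₗ[ℂ] ℂ := LinearMap.mk₂'ₛₗ (starRingEnd ℂ) (RingHom.id ℂ) L hadd1
    (fun c x y => by simpa using hsmul1 c x y) hadd2 (fun c x y => by simpa using hsmul2 c x y)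
  let B₁ : H →L⋆[ℂ] H →L[ℂ] ℂ := LinearMap.mkContinuous₂ B₀ C (fun x y => hL1 x y)
  refine ⟨ContinuousLinearMap.adjoint (InnerProductSpace.continuousLinearMapOfBilin B₁), fun x y => ?_⟩
  rw [ContinuousLinearMap.adjoint_inner_right, InnerProductSpace.continuousLinearMapOfBilin_apply]
  exact hL2 x y

/-- WOT limits of elements of a von Neumann algebra stay inside. -/
lemma wot_limit_mem (ω : Ultrafilter ℕ) (M : VonNeumannAlgebra H) (A : ℕ → H →L[ℂ] H)
    (hA : ∀ k, A k ∈ M) (B : H →L[ℂ] H)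
    (hB : ∀ x y, Tendsto (fun k => ⟪x, A k y⟫_ℂ) (ω : Filter ℕ) (𝓝 ⟪x, B y⟫_ℂ)) : B ∈ M := by
  have hM := M.centralizer_centralizer
  have : B ∈ Set.centralizer (Set.centralizer (M : Set (H →L[ℂ] H))) := by
    rw [Set.mem_centralizer_iff]
    intro b hb
    rw [Set.mem_centralizer_iff] at hb
    refine ContinuousLinearMap.ext fun y => ext_inner_left ℂ fun x => ?_
    simp only [_root_.mul_apply_eq_comp]
    have h1 := hB x (b y)
    have h2 := hB (ContinuousLinearMap.adjoint b x) y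
    rw [ContinuousLinearMap.adjoint_inner_left] at h2
    have h3 : (fun k => ⟪x, A k (b y)⟫_ℂ) = fun k => ⟪ContinuousLinearMap.adjoint b x, A k y⟫_ℂ := by
      funext k
      have hk := hb (A k) (hA k)
      have := congrArg (fun T : H →L[ℂ] H => T y) hk
      simp only [_root_.mul_apply_eq_comp] at this
      rw [ContinuousLinearMap.adjoint_inner_left, ← this]
    rw [h3] at h1
    exact tendsto_nhds_unique h2 h1
  rwa [hM] at this

end ultra

end Crest.Agent.Lib.MRec
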