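import Crest.Agent.Lib.MRec.QForm

set_option autoImplicit false
set_option linter.unusedSectionVars false

open Filter MeasureTheory
open scoped Topology InnerProductSpace

namespace Crest.Agent.Lib.MRec

open Crest.OpAlg

variable {H : Type*} [NormedAddCommGroup H] [InnerProductSpace ℂ H] [CompleteSpace H]

/-- Average over all sign choices, by recursion on the list. -/
noncomputable def signAvg : List (H →L[ℂ] H) → ((H →L[ℂ] H) → ℝ) → ℝ
  | [], g => g 0
  | y :: l, g => signAvg l (fun F => (g (F + y) + g (F - y)) / 2)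

@[simp] lemma signAvg_nil (g : (H →L[ℂ] H) → ℝ) : signAvg [] g = g 0 := rfl

lemma signAvg_cons (y : H →L[ℂ] H) (l : List (H →L[ℂ] H)) (g : (H →L[ℂ] H) → ℝ) :
    signAvg (y :: l) g = signAvg l (fun F => (g (F + y) + g (F - y)) / 2) := rfl

lemma signAvg_add (l : List (H →L[ℂ] H)) (g₁ g₂ : (H →L[ℂ] H) → ℝ) :
    signAvg l (fun F => g₁ F + g₂ F) = signAvg l g₁ + signAvg l g₂ := by
  induction l generalizing g₁ g₂ with
  | nil => rfl
  | cons y l ih =>
    simp only [signAvg_cons]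
    rw [← ih]
    congr 1
    funext F
    ring

lemma signAvg_const (l : List (H →L[ℂ] H)) (c : ℝ) : signAvg l (fun _ => c) = c := by
  induction l with
  | nil => rfl
  | cons y l ih =>
    simp only [signAvg_cons]
    have : (fun _ : H →L[ℂ] H => (c + c) / 2) = fun _ => c := by
      funext _; ring
    rw [this, ih]

lemma signAvg_const_mul (l : List (H →L[ℂ] H)) (c : ℝ) (g : (H →L[ℂ] H) → ℝ) :
    signAvg l (fun F => c * g F) = c * signAvg l g := by
  induction l generalizing g with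
  | nil => rfl
  | cons y l ih =>
    simp only [signAvg_cons]
    rw [← ih]
    congr 1
    funext F
    ring

lemma signAvg_mono (l : List (H →L[ℂ] H)) {g₁ g₂ : (H →L[ℂ] H) → ℝ} (h : ∀ F, g₁ F ≤ g₂ F) :
    signAvg l g₁ ≤ signAvg l g₂ := by
  induction l generalizing g₁ g₂ with
  | nil => exact h 0
  | cons y l ih =>
    simp only [signAvg_cons]
    refine ih fun F => ?_
    have := h (F + y)
    have := h (F - y)
    linarith

/-- Some sign choice does at least as well as the average. -/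
lemma exists_ge_signAvg (A : AddSubgroup (H →L[ℂ] H)) (l : List (H →L[ℂ] H)) (hl : ∀ x ∈ l, x ∈ A)
    (g : (H →L[ℂ] H) → ℝ) : ∃ F ∈ A, signAvg l g ≤ g F := by
  induction l generalizing g with
  | nil => exact ⟨0, A.zero_mem, le_rfl⟩
  | cons y l ih =>
    obtain ⟨F, hF, hFg⟩ := ih (fun x hx => hl x (List.mem_cons_of_mem _ hx))
      (fun F => (g (F + y) + g (F - y)) / 2)
    have hy : y ∈ A := hl y List.mem_cons_self
    rw [signAvg_cons]
    rcases le_total (g (F + y)) (g (F - y)) with h | h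
    · exact ⟨F - y, A.sub_mem hF hy, hFg.trans (by linarith)⟩
    · exact ⟨F + y, A.add_mem hF hy, hFg.trans (by linarith)⟩

/-- Orthogonality of signs for quadratic functionals. -/
lemma signAvg_quad {q : H → ℝ} (hq : ∀ a b, q (a + b) + q (a - b) = 2 * q a + 2 * q b) (hq0 : q 0 = 0)
    (Φ : (H →L[ℂ] H) →+ H) (l : List (H →L[ℂ] H)) :
    signAvg l (fun F => q (Φ F)) = (l.map fun x => q (Φ x)).sum := by
  induction l with
  | nil => simp [hq0]
  | cons y l ih =>
    rw [signAvg_cons, List.map_cons, List.sum_cons]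
    have : (fun F : H →L[ℂ] H => (q (Φ (F + y)) + q (Φ (F - y))) / 2) =
        fun F => q (Φ F) + q (Φ y) := by
      funext F
      rw [map_add, map_sub, hq]
      ring
    rw [this, signAvg_add, ih, signAvg_const]
    ring

lemma normSq_parallelogram (a b : H) :
    ‖a + b‖ ^ 2 + ‖a - b‖ ^ 2 = 2 * ‖a‖ ^ 2 + 2 * ‖b‖ ^ 2 := by
  have := parallelogram_law_with_norm ℂ a b
  nlinarith [this]

/-- The square of the sum of signed elements is the sum of squares, on average. -/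
lemma signAvg_sq_re (v w : H) (l : List (H →L[ℂ] H)) :
    signAvg l (fun F => (⟪(F * F) v, w⟫_ℂ).re) = (l.map fun x => (⟪(x * x) v, w⟫_ℂ).re).sum := by
  induction l with
  | nil => simp
  | cons y l ih =>
    rw [signAvg_cons, List.map_cons, List.sum_cons]
    have : (fun F : H →L[ℂ] H => ((⟪((F + y) * (F + y)) v, w⟫_ℂ).re + (⟪((F - y) * (F - y)) v, w⟫_ℂ).re) / 2) =
        fun F => (⟪(F * F) v, w⟫_ℂ).re + (⟪(y * y) v, w⟫_ℂ).re := by
      funext F
      have h1 : ((F + y) * (F + y)) v = (F * F) v + (y * y) v + (F * y) v + (y * F) v := by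
        simp only [_root_.mul_apply_eq_comp, map_add, add_apply]
        abel
      have h2 : ((F - y) * (F - y)) v = (F * F) v + (y * y) v - (F * y) v - (y * F) v := by
        simp only [_root_.mul_apply_eq_comp, map_sub, sub_apply]
        abel
      rw [h1, h2]
      simp only [inner_add_left, inner_sub_left, Complex.add_re, Complex.sub_re]
      ring
    rw [this, signAvg_add, ih, signAvg_const]
    ring

/-- fourth moment -/
noncomputable def m4 (v : H) (l : List (H →L[ℂ] H)) : ℝ :=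
  signAvg l (fun F => ‖(F * F) v‖ ^ 2)

lemma pointwise_m4 (v : H) (F y : H →L[ℂ] H) :
    (‖((F + y) * (F + y)) v‖ ^ 2 + ‖((F - y) * (F - y)) v‖ ^ 2) / 2 ≤
      ‖(F * F) v‖ ^ 2 + (‖(y * y) v‖ ^ 2 + (2 * (⟪(F * F) v, (y * y) v⟫_ℂ).re + (2 * ‖F (y v)‖ ^ 2 + 2 * ‖y (F v)‖ ^ 2))) := by
  have h1 : ((F + y) * (F + y)) v = ((F * F) v + (y * y) v) + (F (y v) + y (F v)) := by
    simp only [_root_.mul_apply_eq_comp, map_add, add_apply]
    abel
  have h2 : ((F - y) * (F - y)) v = ((F * F) v + (y * y) v) - (F (y v) + y (F v)) := by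
    simp only [_root_.mul_apply_eq_comp, map_sub, sub_apply]
    abel
  rw [h1, h2, normSq_parallelogram]
  have h3 := normSq_parallelogram (F (y v)) (y (F v))
  have h4 : 0 ≤ ‖F (y v) - y (F v)‖ ^ 2 := by positivity
  have h5 : ‖(F * F) v + (y * y) v‖ ^ 2 =
      ‖(F * F) v‖ ^ 2 + 2 * (⟪(F * F) v, (y * y) v⟫_ℂ).re + ‖(y * y) v‖ ^ 2 := by
    have := norm_add_sq (𝕜 := ℂ) ((F * F) v) ((y * y) v)
    simpa using this
  rw [h5]
  linarith

lemma m4_cons_le (v : H) (y : H →L[ℂ] H) (l : List (H →L[ℂ] H)) :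
    m4 v (y :: l) ≤ m4 v l + (‖(y * y) v‖ ^ 2 +
      (2 * (l.map fun x => (⟪(x * x) v, (y * y) v⟫_ℂ).re).sum +
        (2 * (l.map fun x => ‖x (y v)‖ ^ 2).sum + 2 * (l.map fun x => ‖y (x v)‖ ^ 2).sum))) := by
  rw [m4, signAvg_cons]
  refine (signAvg_mono l (pointwise_m4 v · y)).trans_eq ?_
  rw [signAvg_add, signAvg_add, signAvg_const, signAvg_add, signAvg_const_mul, signAvg_sq_re,
    signAvg_add, signAvg_const_mul, signAvg_const_mul]
  have hq : ∀ a b : H, ‖a + b‖ ^ 2 + ‖a - b‖ ^ 2 = 2 * ‖a‖ ^ 2 + 2 * ‖b‖ ^ 2 := normSq_parallelogram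
  have hq0 : ‖(0 : H)‖ ^ 2 = 0 := by simp
  let Φ₁ : (H →L[ℂ] H) →+ H :=
    { toFun := fun F => F (y v), map_zero' := by simp, map_add' := fun F G => by simp }
  let Φ₂ : (H →L[ℂ] H) →+ H :=
    { toFun := fun F => y (F v), map_zero' := by simp, map_add' := fun F G => by simp }
  have e1 := signAvg_quad (q := fun a => ‖a‖ ^ 2) hq hq0 Φ₁ l
  have e2 := signAvg_quad (q := fun a => ‖a‖ ^ 2) hq hq0 Φ₂ l
  simp only [Φ₁, Φ₂, AddMonoidHom.coe_mk, ZeroHom.coe_mk] at e1 e2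
  rw [e1, e2]
  rfl

lemma cont_two_mul {g : ℝ → ℝ} (h : Continuous g) : Continuous fun t => 2 * g t := by fun_prop

lemma cont_add' {g₁ g₂ : ℝ → ℝ} (h₁ : Continuous g₁) (h₂ : Continuous g₂) :
    Continuous fun t => g₁ t + g₂ t := by fun_prop

section vmeanTendsto

variable {ω : Ultrafilter ℕ}

lemma tendsto_vmean_add {g₁ g₂ : ℝ → ℝ} {a b : ℝ} (h₁ : Continuous g₁) (h₂ : Continuous g₂)
    (t₁ : Tendsto (fun k => vmean g₁ k) (ω : Filter ℕ) (𝓝 a))
    (t₂ : Tendsto (fun k => vmean g₂ k) (ω : Filter ℕ) (𝓝 b)) :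
    Tendsto (fun k => vmean (fun t => g₁ t + g₂ t) k) (ω : Filter ℕ) (𝓝 (a + b)) := by
  refine (t₁.add t₂).congr fun k => ?_
  rw [vmean_add h₁ h₂]

lemma tendsto_vmean_const_mul {g : ℝ → ℝ} {a : ℝ} (c : ℝ)
    (t : Tendsto (fun k => vmean g k) (ω : Filter ℕ) (𝓝 a)) :
    Tendsto (fun k => vmean (fun t => c * g t) k) (ω : Filter ℕ) (𝓝 (c * a)) := by
  refine (t.const_mul c).congr fun k => ?_
  have := vmean_smul (g := g) c k
  simpa using this.symm

lemma tendsto_vmean_const (hω : (ω : Filter ℕ) ≤ atTop) (c : ℝ) :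
    Tendsto (fun k => vmean (fun _ : ℝ => c) k) (ω : Filter ℕ) (𝓝 c) := by
  have h3 : ∀ᶠ k : ℕ in (ω : Filter ℕ), vmean (fun _ : ℝ => c) k = c := by
    filter_upwards [hω (eventually_ne_atTop 0)] with k hk
    exact vmean_const _ hk
  exact tendsto_const_nhds.congr' (h3.mono fun k hk => hk.symm)

lemma tendsto_vmean_re {g : ℝ → ℂ} {a : ℂ} (hg : Continuous g)
    (t : Tendsto (fun k => vmean g k) (ω : Filter ℕ) (𝓝 a)) :
    Tendsto (fun k => vmean (fun t => (g t).re) k) (ω : Filter ℕ) (𝓝 a.re) := by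
  have h1 := Complex.reCLM.continuous.tendsto a |>.comp t
  refine h1.congr fun k => ?_
  exact vmean_map Complex.reCLM hg k

lemma tendsto_vmean_listSum {ι : Type*} (hω : (ω : Filter ℕ) ≤ atTop) (W : ι → ℝ → ℝ) (c : ℝ) (l : List ι)
    (hl : ∀ x ∈ l, Continuous (W x) ∧ Tendsto (fun k => vmean (W x) k) (ω : Filter ℕ) (𝓝 c)) :
    Continuous (fun t => (l.map fun x => W x t).sum) ∧
      Tendsto (fun k => vmean (fun t => (l.map fun x => W x t).sum) k) (ω : Filter ℕ)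
        (𝓝 ((l.length : ℝ) * c)) := by
  induction l with
  | nil =>
    simp only [List.map_nil, List.sum_nil, List.length_nil, Nat.cast_zero, zero_mul]
    exact ⟨continuous_const, tendsto_vmean_const hω 0⟩
  | cons y l ih =>
    obtain ⟨ih1, ih2⟩ := ih (fun x hx => hl x (List.mem_cons_of_mem _ hx))
    obtain ⟨hy1, hy2⟩ := hl y List.mem_cons_self
    simp only [List.map_cons, List.sum_cons, List.length_cons]
    refine ⟨hy1.add ih1, ?_⟩
    have := tendsto_vmean_add hy1 ih1 hy2 ih2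
    convert this using 2
    push_cast
    ring

end vmeanTendsto

namespace MD

variable (S : ModularDatum H)

lemma sa_inner (a : H →L[ℂ] H) (ha : IsSelfAdjoint a) (u v : H) : ⟪a u, v⟫_ℂ = ⟪u, a v⟫_ℂ := by
  have := ContinuousLinearMap.adjoint_inner_left a v u
  rwa [← ContinuousLinearMap.star_eq_adjoint, ha.star_eq] at this

lemma inner_mul_self (a : H →L[ℂ] H) (ha : IsSelfAdjoint a) (w w' : H) :
    ⟪w, (a * a) w'⟫_ℂ = ⟪a w, a w'⟫_ℂ := by
  rw [_root_.mul_apply_eq_comp, sa_inner a ha]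

lemma normSq_eq_re_inner (a : H →L[ℂ] H) (ha : IsSelfAdjoint a) (w : H) :
    ‖a w‖ ^ 2 = (⟪w, (a * a) w⟫_ℂ).re := by
  rw [inner_mul_self a ha, inner_self_eq_norm_sq_to_K]
  norm_cast

lemma inner_self_one {w : H} (hw : ‖w‖ = 1) : ⟪w, w⟫_ℂ = 1 := by
  rw [inner_self_eq_norm_sq_to_K, hw]
  simp

lemma isSelfAdjoint_flow (t : ℝ) {a : H →L[ℂ] H} (ha : IsSelfAdjoint a) :
    IsSelfAdjoint (S.flow t a) := by
  rw [IsSelfAdjoint, star_flow, ha.star_eq]

lemma step (herg : S.Ergodic) (ω : Ultrafilter ℕ) (hω : (ω : Filter ℕ) ≤ atTop)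
    {f : H →L[ℂ] H} (hfM : f ∈ S.M) (hfs : IsSelfAdjoint f) (hf1 : ‖f S.vac‖ = 1)
    (l : List (H →L[ℂ] H)) (hl : ∀ x ∈ l, x ∈ S.M ∧ IsSelfAdjoint x ∧ ‖x S.vac‖ = 1) :
    ∃ t, m4 S.vac (S.flow t f :: l) ≤ m4 S.vac l + (‖(f * f) S.vac‖ ^ 2 + 6 * (l.length : ℝ) + 1) := by
  set a : H →L[ℂ] H := f * f with ha
  have haM : a ∈ S.M := mul_mem hfM hfM
  set W : (H →L[ℂ] H) → ℝ → ℝ := fun x t =>
    2 * (⟪(x * x) S.vac, S.flow t a S.vac⟫_ℂ).re +
      (2 * (⟪f S.vac, S.flow (-t) (x * x) (f S.vac)⟫_ℂ).re +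
        2 * (⟪x S.vac, S.flow t a (x S.vac)⟫_ℂ).re) with hW
  -- pointwise bound
  have hpt : ∀ t, m4 S.vac (S.flow t f :: l) ≤
      m4 S.vac l + (‖a S.vac‖ ^ 2 + (l.map fun x => W x t).sum) := by
    intro t
    refine (m4_cons_le S.vac (S.flow t f) l).trans (le_of_eq ?_)
    have hy : S.flow t f * S.flow t f = S.flow t a := (flow_mul S t f f).symm
    have hys : IsSelfAdjoint (S.flow t f) := isSelfAdjoint_flow S t hfs
    rw [hy, flow_vac, LC.norm_wave]
    congr 2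
    have e1 : ∀ x ∈ l, ‖x (S.flow t f S.vac)‖ ^ 2 =
        (⟪f S.vac, S.flow (-t) (x * x) (f S.vac)⟫_ℂ).re := by
      intro x hx
      rw [normSq_eq_re_inner x (hl x hx).2.1, flow_vac, flow_apply, neg_neg,
        ← LC.inner_wave_left S.D t]
    have e2 : ∀ x ∈ l, ‖S.flow t f (x S.vac)‖ ^ 2 = (⟪x S.vac, S.flow t a (x S.vac)⟫_ℂ).re := by
      intro x hx
      rw [normSq_eq_re_inner _ hys, hy]
    have e3 : (l.map fun x => ‖x (S.flow t f S.vac)‖ ^ 2) =
        l.map fun x => (⟪f S.vac, S.flow (-t) (x * x) (f S.vac)⟫_ℂ).re :=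
      List.map_congr_left e1
    have e4 : (l.map fun x => ‖S.flow t f (x S.vac)‖ ^ 2) =
        l.map fun x => (⟪x S.vac, S.flow t a (x S.vac)⟫_ℂ).re :=
      List.map_congr_left e2
    rw [e3, e4]
    simp only [hW]
    clear e1 e2 e3 e4
    induction l with
    | nil => simp
    | cons z l ih =>
      simp only [List.map_cons, List.sum_cons]
      rw [← ih (fun x hx => hl x (List.mem_cons_of_mem _ hx))]
      rw [flow_vac]
      ring
  -- limits
  have hφa : ⟪S.vac, a S.vac⟫_ℂ = 1 := by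
    rw [ha, inner_mul_self f hfs, inner_self_one hf1]
  have hlim : ∀ x ∈ l, Continuous (W x) ∧ Tendsto (fun k => vmean (W x) k) (ω : Filter ℕ) (𝓝 6) := by
    intro x hx
    obtain ⟨hxM, hxs, hx1⟩ := hl x hx
    have hφx : ⟪S.vac, (x * x) S.vac⟫_ℂ = 1 := by
      rw [inner_mul_self x hxs, inner_self_one hx1]
    have hxxM : x * x ∈ S.M := mul_mem hxM hxM
    have c1 : Continuous fun t => ⟪(x * x) S.vac, S.flow t a S.vac⟫_ℂ := continuous_inner_flow S a _ _
    have c2 : Continuous fun t => ⟪f S.vac, S.flow (-t) (x * x) (f S.vac)⟫_ℂ :=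
      continuous_const.inner (continuous_flow_apply S continuous_neg (x * x) (f S.vac))
    have c3 : Continuous fun t => ⟪x S.vac, S.flow t a (x S.vac)⟫_ℂ := continuous_inner_flow S a _ _
    have r1 : Continuous fun t => 2 * (⟪(x * x) S.vac, S.flow t a S.vac⟫_ℂ).re :=
      cont_two_mul (Complex.continuous_re.comp c1)
    have r2 : Continuous fun t => 2 * (⟪f S.vac, S.flow (-t) (x * x) (f S.vac)⟫_ℂ).re :=
      cont_two_mul (Complex.continuous_re.comp c2)
    have r3 : Continuous fun t => 2 * (⟪x S.vac, S.flow t a (x S.vac)⟫_ℂ).re :=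
      cont_two_mul (Complex.continuous_re.comp c3)
    have l1 := tendsto_vmean_re c1 (ergodic_mean S herg ω hω a haM ((x * x) S.vac) S.vac)
    have l2 := tendsto_vmean_re c2 (ergodic_mean_neg S herg ω hω (x * x) hxxM (f S.vac) (f S.vac))
    have l3 := tendsto_vmean_re c3 (ergodic_mean S herg ω hω a haM (x S.vac) (x S.vac))
    have e1 : ⟪(x * x) S.vac, S.vac⟫_ℂ = 1 := by
      rw [← inner_conj_symm, hφx]; simp
    rw [hφa, e1] at l1
    rw [hφx, inner_self_one hf1] at l2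
    rw [hφa, inner_self_one hx1] at l3
    simp only [mul_one, Complex.one_re] at l1 l2 l3
    have r23 : Continuous fun t => 2 * (⟪f S.vac, S.flow (-t) (x * x) (f S.vac)⟫_ℂ).re +
        2 * (⟪x S.vac, S.flow t a (x S.vac)⟫_ℂ).re := cont_add' r2 r3
    refine ⟨cont_add' r1 r23, ?_⟩
    have := tendsto_vmean_add r1 r23 (tendsto_vmean_const_mul 2 l1)
      (tendsto_vmean_add r2 r3 (tendsto_vmean_const_mul 2 l2) (tendsto_vmean_const_mul 2 l3))
    have h6 : (2 * 1 + (2 * 1 + 2 * 1) : ℝ) = 6 := by norm_num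
    rw [h6] at this
    exact this
  obtain ⟨hcs, hts⟩ := tendsto_vmean_listSum hω W 6 l hlim
  have hG := tendsto_vmean_add (continuous_const (y := ‖a S.vac‖ ^ 2)) hcs
    (tendsto_vmean_const hω _) hts
  have hev : ∀ᶠ k in (ω : Filter ℕ),
      vmean (fun t => ‖a S.vac‖ ^ 2 + (l.map fun x => W x t).sum) k <
        ‖a S.vac‖ ^ 2 + (l.length : ℝ) * 6 + 1 :=
    hG.eventually (gt_mem_nhds (by linarith))
  obtain ⟨k, hk1, hk2⟩ := (hev.and (hω (eventually_ne_atTop 0))).exists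
  obtain ⟨t, ht⟩ := exists_lt_of_vmean_lt (cont_add' continuous_const hcs) hk2 hk1
  refine ⟨t, (hpt t).trans ?_⟩
  have ht' : ‖a S.vac‖ ^ 2 + (l.map fun x => W x t).sum < ‖a S.vac‖ ^ 2 + (l.length : ℝ) * 6 + 1 := ht
  linarith

theorem exists_list (herg : S.Ergodic) (ω : Ultrafilter ℕ) (hω : (ω : Filter ℕ) ≤ atTop)
    {f : H →L[ℂ] H} (hfM : f ∈ S.M) (hfs : IsSelfAdjoint f) (hf1 : ‖f S.vac‖ = 1) (N : ℕ) :
    ∃ l : List (H →L[ℂ] H), l.length = N ∧ (∀ x ∈ l, ∃ t, x = S.flow t f) ∧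
      m4 S.vac l ≤ (N : ℝ) * ‖(f * f) S.vac‖ ^ 2 + 3 * (N : ℝ) ^ 2 := by
  induction N with
  | zero =>
    refine ⟨[], rfl, by simp, ?_⟩
    simp [m4]
  | succ N ih =>
    obtain ⟨l, hl1, hl2, hl3⟩ := ih
    have hl' : ∀ x ∈ l, x ∈ S.M ∧ IsSelfAdjoint x ∧ ‖x S.vac‖ = 1 := by
      intro x hx
      obtain ⟨t, rfl⟩ := hl2 x hx
      refine ⟨S.flow_mem t f hfM, isSelfAdjoint_flow S t hfs, ?_⟩
      rw [flow_vac, LC.norm_wave, hf1]
    obtain ⟨t, ht⟩ := step S herg ω hω hfM hfs hf1 l hl'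
    refine ⟨S.flow t f :: l, by simp [hl1], ?_, ?_⟩
    · intro x hx
      rcases List.mem_cons.1 hx with rfl | hx
      · exact ⟨t, rfl⟩
      · exact hl2 x hx
    · refine ht.trans ?_
      rw [hl1, Nat.cast_succ]
      have e : ((N : ℝ) + 1) * ‖(f * f) S.vac‖ ^ 2 + 3 * ((N : ℝ) + 1) ^ 2 =
          (N : ℝ) * ‖(f * f) S.vac‖ ^ 2 + 3 * (N : ℝ) ^ 2 + ‖(f * f) S.vac‖ ^ 2 + 6 * (N : ℝ) + 3 := by ring
      rw [e]
      linarith

end MD

end Crest.Agent.Lib.MRec
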