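import Crest.Agent.Lib.MRec.Erg

set_option autoImplicit false
set_option linter.unusedSectionVars false

open Filter MeasureTheory
open scoped Topology InnerProductSpace

namespace Crest.Agent.Lib.MRec

open Crest.OpAlg

section means

lemma windowMean_eq_vmean (f : ℝ → ℝ) (k : ℕ) : windowMean f k = vmean f k := by
  have hk : -(k : ℝ) ≤ k := by
    have : (0 : ℝ) ≤ k := by positivity
    linarith
  rw [windowMean, setAverage_eq, vmean, Real.volume_real_Icc_of_le hk]
  congr 2
  ring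

lemma tendsto_ultraMean (ω : Ultrafilter ℕ) (f : ℝ → ℝ) {B : ℝ} (hB : ∀ t, |f t| ≤ B) :
    Tendsto (fun k => vmean f k) (ω : Filter ℕ) (𝓝 (ultraMean ω f)) := by
  obtain ⟨z, -, hz⟩ := exists_tendsto_ultra_real ω (fun k => vmean f k) (C := B)
    (fun k => norm_vmean_le (fun t => by simpa using hB t) k)
  have h1 : ultraMean ω f = z := by
    rw [ultraMean]
    have : windowMean f = fun k => vmean f k := funext fun k => windowMean_eq_vmean f k
    rw [this]
    exact hz.limUnder_eq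
  rw [h1]
  exact hz

lemma exists_lt_of_lt_vmean {f : ℝ → ℝ} (hf : Continuous f) {c : ℝ} {k : ℕ} (hk : k ≠ 0)
    (h : c < vmean f k) : ∃ t, c < f t := by
  by_contra hcon
  push Not at hcon
  have hk' : (0 : ℝ) < k := by exact_mod_cast Nat.pos_of_ne_zero hk
  have h1 : ∫ t in Set.Icc (-(k : ℝ)) (k : ℝ), f t ≤ ∫ t in Set.Icc (-(k : ℝ)) (k : ℝ), c := by
    refine setIntegral_mono_on (intOn hf k) (intOn continuous_const k) measurableSet_Icc
      (fun t _ => hcon t)
  rw [setIntegral_const, Real.volume_real_Icc_of_le (by linarith)] at h1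
  have h2 : vmean f k ≤ c := by
    rw [vmean, smul_eq_mul, inv_mul_le_iff₀ (by positivity)]
    simp only [smul_eq_mul] at h1
    linarith
  linarith

lemma exists_lt_of_vmean_lt {f : ℝ → ℝ} (hf : Continuous f) {c : ℝ} {k : ℕ} (hk : k ≠ 0)
    (h : vmean f k < c) : ∃ t, f t < c := by
  by_contra hcon
  push Not at hcon
  have hk' : (0 : ℝ) < k := by exact_mod_cast Nat.pos_of_ne_zero hk
  have h1 : ∫ t in Set.Icc (-(k : ℝ)) (k : ℝ), c ≤ ∫ t in Set.Icc (-(k : ℝ)) (k : ℝ), f t := by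
    refine setIntegral_mono_on (intOn continuous_const k) (intOn hf k) measurableSet_Icc
      (fun t _ => hcon t)
  rw [setIntegral_const, Real.volume_real_Icc_of_le (by linarith)] at h1
  have h2 : c ≤ vmean f k := by
    rw [vmean, smul_eq_mul, le_inv_mul_iff₀ (by positivity)]
    simp only [smul_eq_mul] at h1
    linarith
  linarith

end means

variable {H : Type*} [NormedAddCommGroup H] [InnerProductSpace ℂ H] [CompleteSpace H]

namespace MD

variable (D : LineCalculus H) (ω : Ultrafilter ℕ) (T : H →L[ℂ] H)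

/-- The long-time mean seminorm squared. -/
noncomputable def Q (y : H) : ℝ := ultraMean ω (fun t => ‖T (D.wave t y)‖ ^ 2)

lemma continuous_sq (y : H) : Continuous fun t => ‖T (D.wave t y)‖ ^ 2 :=
  ((T.continuous.comp (LC.continuous_wave_apply D y)).norm).pow 2

lemma sq_bound (y t : _) : ‖T (D.wave t y)‖ ^ 2 ≤ (‖T‖ * ‖y‖) ^ 2 := by
  have h := T.le_opNorm (D.wave t y)
  rw [LC.norm_wave] at h
  gcongr

lemma tendsto_Q (y : H) :
    Tendsto (fun k => vmean (fun t => ‖T (D.wave t y)‖ ^ 2) k) (ω : Filter ℕ) (𝓝 (Q D ω T y)) :=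
  tendsto_ultraMean ω _ (B := (‖T‖ * ‖y‖) ^ 2) fun t => by
    rw [abs_of_nonneg (by positivity)]
    exact sq_bound D T y t

lemma Q_nonneg (y : H) : 0 ≤ Q D ω T y := by
  refine ge_of_tendsto (tendsto_Q D ω T y) (Eventually.of_forall fun k => ?_)
  rw [vmean]
  refine smul_nonneg (by positivity) (integral_nonneg fun t => by positivity)

lemma Q_le (y : H) : Q D ω T y ≤ ‖T‖ ^ 2 * ‖y‖ ^ 2 := by
  refine le_of_tendsto (tendsto_Q D ω T y) (Eventually.of_forall fun k => ?_)
  have h := norm_vmean_le (g := fun t => ‖T (D.wave t y)‖ ^ 2) (B := (‖T‖ * ‖y‖) ^ 2)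
    (fun t => by
      rw [Real.norm_of_nonneg (by positivity)]
      exact sq_bound D T y t) k
  rw [mul_pow] at h
  exact (le_abs_self _).trans h

lemma Q_parallelogram (x y : H) :
    Q D ω T (x + y) + Q D ω T (x - y) = 2 * Q D ω T x + 2 * Q D ω T y := by
  have h1 := (tendsto_Q D ω T (x + y)).add (tendsto_Q D ω T (x - y))
  have h2 := ((tendsto_Q D ω T x).const_mul 2).add ((tendsto_Q D ω T y).const_mul 2)
  refine tendsto_nhds_unique (h1.congr fun k => ?_) h2
  rw [← vmean_add (continuous_sq D T _) (continuous_sq D T _)]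
  have e1 : ∀ a : ℝ, 2 * a = (2 : ℝ) • a := fun a => by simp
  have c1 : ∀ z : H, Continuous fun t => (2 : ℝ) • ‖T (D.wave t z)‖ ^ 2 := fun z => by
    have := continuous_sq D T z
    fun_prop
  rw [e1, e1, ← vmean_smul, ← vmean_smul, ← vmean_add (c1 x) (c1 y)]
  congr 1
  funext t
  simp only [map_add, map_sub, smul_eq_mul]
  have := parallelogram_law_with_norm ℂ (T (D.wave t x)) (T (D.wave t y))
  nlinarith [this]

lemma Q_smul (c : ℂ) (y : H) : Q D ω T (c • y) = ‖c‖ ^ 2 * Q D ω T y := by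
  have h1 := (tendsto_Q D ω T y).const_mul (‖c‖ ^ 2)
  refine tendsto_nhds_unique (tendsto_Q D ω T (c • y)) (h1.congr fun k => ?_)
  have e1 : ∀ a : ℝ, ‖c‖ ^ 2 * a = (‖c‖ ^ 2) • a := fun a => by simp
  rw [e1, ← vmean_smul]
  congr 1
  funext t
  simp only [map_smul, norm_smul, smul_eq_mul]
  ring

lemma Q_zero : Q D ω T 0 = 0 := by
  have := Q_smul D ω T 0 0
  simpa using this

lemma Q_neg (y : H) : Q D ω T (-y) = Q D ω T y := by
  have := Q_smul D ω T (-1) y
  simpa using this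

lemma Q_wave (hω : (ω : Filter ℕ) ≤ atTop) (τ : ℝ) (y : H) : Q D ω T (D.wave τ y) = Q D ω T y := by
  have hg := continuous_sq D T y
  have hbd : ∀ t, ‖‖T (D.wave t y)‖ ^ 2‖ ≤ (‖T‖ * ‖y‖) ^ 2 := fun t => by
    rw [Real.norm_of_nonneg (by positivity)]
    exact sq_bound D T y t
  have h3 : Tendsto (fun k : ℕ => (2 * (k : ℝ))⁻¹ * (2 * (((‖T‖ * ‖y‖) ^ 2) * |τ|)))
      (ω : Filter ℕ) (𝓝 0) := by
    have h4 : Tendsto (fun k : ℕ => (2 * (k : ℝ))⁻¹) atTop (𝓝 0) := by
      have : Tendsto (fun k : ℕ => (2 * (k : ℝ))) atTop atTop :=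
        tendsto_natCast_atTop_atTop.const_mul_atTop (by norm_num)
      exact tendsto_inv_atTop_zero.comp this
    have := (h4.mono_left hω).mul_const (2 * (((‖T‖ * ‖y‖) ^ 2) * |τ|))
    simpa using this
  have h5 : Tendsto (fun k => vmean (fun t => ‖T (D.wave (t + τ) y)‖ ^ 2) k -
      vmean (fun t => ‖T (D.wave t y)‖ ^ 2) k) (ω : Filter ℕ) (𝓝 0) := by
    refine squeeze_zero_norm (fun k => ?_) h3
    exact norm_vmean_shift_sub_le hg hbd τ k
  have h6 := h5.add (tendsto_Q D ω T y)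
  simp only [sub_add_cancel, zero_add] at h6
  refine tendsto_nhds_unique (tendsto_Q D ω T (D.wave τ y)) (h6.congr fun k => ?_)
  congr 1
  funext t
  rw [LC.wave_add, _root_.mul_apply_eq_comp]

lemma Q_le_two (x y : H) : Q D ω T x ≤ 2 * Q D ω T y + 2 * Q D ω T (x - y) := by
  have h := Q_parallelogram D ω T y (x - y)
  have h2 := Q_nonneg D ω T (y - (x - y))
  rw [add_sub_cancel] at h
  linarith

lemma exists_time (y : H) (hy : 0 < Q D ω T y) (hω : (ω : Filter ℕ) ≤ atTop) :
    ∃ t, Q D ω T y / 2 < ‖T (D.wave t y)‖ ^ 2 := by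
  have h1 : ∀ᶠ k in (ω : Filter ℕ), Q D ω T y / 2 < vmean (fun t => ‖T (D.wave t y)‖ ^ 2) k :=
    (tendsto_Q D ω T y).eventually (lt_mem_nhds (by linarith))
  obtain ⟨k, hk1, hk2⟩ := (h1.and (hω (eventually_ne_atTop 0))).exists
  exact exists_lt_of_lt_vmean (continuous_sq D T y) hk2 hk1

/-- Composing with a multiplier commuting with the group. -/
lemma Q_comp (R : H →L[ℂ] H) (hR : ∀ t, R * D.wave t = D.wave t * R) (y : H) :
    Q D ω (T * R) y = Q D ω T (R y) := by
  unfold Q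
  congr 1
  funext t
  have := congrArg (fun A : H →L[ℂ] H => A y) (hR t)
  simp only [_root_.mul_apply_eq_comp] at this ⊢
  rw [this]

end MD

end Crest.Agent.Lib.MRec
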