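import Crest.Agent.Lib.MRec.Mean

set_option autoImplicit false
set_option linter.unusedSectionVars false

open Filter MeasureTheory
open scoped Topology InnerProductSpace

namespace Crest.Agent.Lib.MRec

open Crest.OpAlg

variable {H : Type*} [NormedAddCommGroup H] [InnerProductSpace ℂ H] [CompleteSpace H]

section smear

/-- Smearing a bounded strongly continuous family of operators against an integrable weight. -/
lemma exists_smear (μ : Measure ℝ) (w : ℝ → ℂ) (hw : Integrable w μ) (A : ℝ → H →L[ℂ] H) {C : ℝ}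
    (hA : ∀ t, ‖A t‖ ≤ C) (hc : ∀ y, Continuous fun t => A t y) :
    ∃ B : H →L[ℂ] H, ‖B‖ ≤ C * ∫ t, ‖w t‖ ∂μ ∧ ∀ y, B y = ∫ t, w t • A t y ∂μ := by
  have hC : 0 ≤ C := (norm_nonneg _).trans (hA 0)
  have hint : ∀ y, Integrable (fun t => w t • A t y) μ := fun y => by
    refine Integrable.mono' (hw.norm.mul_const (C * ‖y‖)) ?_ ?_
    · exact hw.aestronglyMeasurable.smul (hc y).aestronglyMeasurable
    · refine Eventually.of_forall fun t => ?_
      rw [norm_smul]
      gcongr
      exact ((A t).le_opNorm y).trans (by gcongr; exact hA t)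
  let B₀ : H →ₗ[ℂ] H :=
    { toFun := fun y => ∫ t, w t • A t y ∂μ
      map_add' := fun x y => by
        simp only [map_add, smul_add]
        exact integral_add (hint x) (hint y)
      map_smul' := fun c y => by
        simp only [map_smul, RingHom.id_apply]
        rw [← integral_smul]
        congr 1
        funext t
        rw [smul_comm] }
  have hbd : ∀ y, ‖B₀ y‖ ≤ (C * ∫ t, ‖w t‖ ∂μ) * ‖y‖ := fun y => by
    have h1 : ‖∫ t, w t • A t y ∂μ‖ ≤ ∫ t, ‖w t‖ * (C * ‖y‖) ∂μ := by
      refine norm_integral_le_of_norm_le (hw.norm.mul_const _) (Eventually.of_forall fun t => ?_)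
      rw [norm_smul]
      gcongr
      exact ((A t).le_opNorm y).trans (by gcongr; exact hA t)
    rw [integral_mul_const] at h1
    calc ‖B₀ y‖ ≤ _ := h1
      _ = _ := by ring
  refine ⟨B₀.mkContinuous _ hbd, ?_, fun y => rfl⟩
  exact B₀.mkContinuous_norm_le (mul_nonneg hC (integral_nonneg fun _ => norm_nonneg _)) hbd

lemma smear_mem (M : VonNeumannAlgebra H) (μ : Measure ℝ) (w : ℝ → ℂ) (hw : Integrable w μ)
    (A : ℝ → H →L[ℂ] H) {C : ℝ} (hA : ∀ t, ‖A t‖ ≤ C) (hc : ∀ y, Continuous fun t => A t y)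
    (hM : ∀ t, A t ∈ M) (B : H →L[ℂ] H) (hB : ∀ y, B y = ∫ t, w t • A t y ∂μ) : B ∈ M := by
  have hC : 0 ≤ C := (norm_nonneg _).trans (hA 0)
  have hint : ∀ y, Integrable (fun t => w t • A t y) μ := fun y => by
    refine Integrable.mono' (hw.norm.mul_const (C * ‖y‖)) ?_ ?_
    · exact hw.aestronglyMeasurable.smul (hc y).aestronglyMeasurable
    · refine Eventually.of_forall fun t => ?_
      rw [norm_smul]
      gcongr
      exact ((A t).le_opNorm y).trans (by gcongr; exact hA t)
  have : B ∈ Set.centralizer (Set.centralizer (M : Set (H →L[ℂ] H))) := by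
    rw [Set.mem_centralizer_iff]
    intro b hb
    rw [Set.mem_centralizer_iff] at hb
    refine ContinuousLinearMap.ext fun y => ?_
    simp only [_root_.mul_apply_eq_comp]
    rw [hB, hB, ← ContinuousLinearMap.integral_comp_comm b (hint y)]
    refine integral_congr_ae (Eventually.of_forall fun t => ?_)
    simp only [map_smul]
    have hk := hb (A t) (hM t)
    have := congrArg (fun T : H →L[ℂ] H => T y) hk
    simp only [_root_.mul_apply_eq_comp] at this
    rw [this]
  rwa [M.centralizer_centralizer] at this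

end smear

namespace MD

variable (S : ModularDatum H)

lemma flow_apply (t : ℝ) (a : H →L[ℂ] H) (y : H) :
    S.flow t a y = S.D.wave t (a (S.D.wave (-t) y)) := rfl

lemma norm_flow_le (t : ℝ) (a : H →L[ℂ] H) : ‖S.flow t a‖ ≤ ‖a‖ := by
  refine ContinuousLinearMap.opNorm_le_bound _ (norm_nonneg _) fun y => ?_
  rw [flow_apply, LC.norm_wave]
  refine (a.le_opNorm _).trans ?_
  rw [LC.norm_wave]

lemma flow_vac (t : ℝ) (a : H →L[ℂ] H) : S.flow t a S.vac = S.D.wave t (a S.vac) := by
  rw [flow_apply, wave_vac]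

lemma continuous_flow_apply {τ : ℝ → ℝ} (hτ : Continuous τ) (a : H →L[ℂ] H) (y : H) :
    Continuous fun t => S.flow (τ t) a y := by
  simp only [flow_apply]
  refine LC.continuous_wave_apply₂ S.D hτ (a.continuous.comp ?_)
  exact (LC.continuous_wave_apply S.D y).comp hτ.neg

lemma inner_flow (t : ℝ) (a : H →L[ℂ] H) (x y : H) :
    ⟪x, S.flow t a y⟫_ℂ = ⟪S.D.wave (-t) x, a (S.D.wave (-t) y)⟫_ℂ := by
  rw [flow_apply, LC.inner_wave_right]

lemma flow_mul (t : ℝ) (a b : H →L[ℂ] H) : S.flow t (a * b) = S.flow t a * S.flow t b := by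
  refine ContinuousLinearMap.ext fun y => ?_
  simp only [_root_.mul_apply_eq_comp, flow_apply, LC.wave_apply_neg_apply]

lemma star_flow (t : ℝ) (a : H →L[ℂ] H) : star (S.flow t a) = S.flow t (star a) := by
  simp only [ModularDatum.flow, star_mul, LC.star_wave, neg_neg, mul_assoc]

lemma flow_add (s t : ℝ) (a : H →L[ℂ] H) : S.flow (s + t) a = S.flow s (S.flow t a) := by
  refine ContinuousLinearMap.ext fun y => ?_
  have hc : S.D.wave (-(s + t)) y = S.D.wave (-t) (S.D.wave (-s) y) := by
    rw [neg_add_rev, LC.wave_add, _root_.mul_apply_eq_comp]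
  simp only [flow_apply, LC.wave_add, _root_.mul_apply_eq_comp, hc]

end MD

end Crest.Agent.Lib.MRec
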