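import Crest.Agent.Lib.MRec.Moment

set_option autoImplicit false
set_option linter.unusedSectionVars false

open Filter MeasureTheory
open scoped Topology InnerProductSpace

namespace Crest.Agent.Lib.MRec

open Crest.OpAlg

variable {H : Type*} [NormedAddCommGroup H] [InnerProductSpace ℂ H] [CompleteSpace H]

lemma pointwise_trunc {C : ℝ} (hC : 0 < C) (x : ℝ) :
    (x - max (-C) (min x C)) * (x - max (-C) (min x C)) ≤ (1 / C ^ 2) * x ^ 4 := by
  have key : ∀ y : ℝ, (y * y) * C ^ 2 ≤ x ^ 4 → y * y ≤ (1 / C ^ 2) * x ^ 4 := fun y hy => by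
    rw [one_div, ← div_eq_inv_mul, le_div_iff₀ (by positivity)]
    exact hy
  apply key
  rcases le_total x (-C) with h | h
  · have e : max (-C) (min x C) = -C := by
      rw [min_eq_left (by linarith), max_eq_left h]
    rw [e]
    have h1 : 0 ≤ -(x + C) := by linarith
    have h2 : (x - -C) ^ 2 * C ^ 2 ≤ (x ^ 2) ^ 2 := by
      have h3 : -(x + C) * C ≤ x ^ 2 := by nlinarith
      have h4 : 0 ≤ -(x + C) * C := by positivity
      calc (x - -C) ^ 2 * C ^ 2 = (-(x + C) * C) ^ 2 := by ring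
        _ ≤ (x ^ 2) ^ 2 := by gcongr
    nlinarith
  · rcases le_total x C with h' | h'
    · have e : max (-C) (min x C) = x := by
        rw [min_eq_left h', max_eq_right h]
      rw [e]
      simp
      positivity
    · have e : max (-C) (min x C) = C := by
        rw [min_eq_right h', max_eq_right (by linarith)]
      rw [e]
      have h1 : 0 ≤ x - C := by linarith
      have h2 : (x - C) ^ 2 * C ^ 2 ≤ (x ^ 2) ^ 2 := by
        have h3 : (x - C) * C ≤ x ^ 2 := by nlinarith
        have h4 : 0 ≤ (x - C) * C := by positivity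
        calc (x - C) ^ 2 * C ^ 2 = ((x - C) * C) ^ 2 := by ring
          _ ≤ (x ^ 2) ^ 2 := by gcongr
      nlinarith

lemma exists_trunc (M : VonNeumannAlgebra H) {F : H →L[ℂ] H} (hFM : F ∈ M) (hFs : IsSelfAdjoint F)
    {C : ℝ} (hC : 0 < C) (v : H) :
    ∃ G ∈ M, IsSelfAdjoint G ∧ ‖G‖ ≤ C ∧ ‖(F - G) v‖ ^ 2 ≤ ‖(F * F) v‖ ^ 2 / C ^ 2 := by
  set c : ℝ → ℝ := fun x => max (-C) (min x C) with hcdef
  have hc : Continuous c := by fun_prop
  set G : H →L[ℂ] H := cfc c F with hG
  have hGs : IsSelfAdjoint G := cfc_predicate c F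
  have hGM : G ∈ M := by
    have : G ∈ Set.centralizer (Set.centralizer (M : Set (H →L[ℂ] H))) := by
      rw [Set.mem_centralizer_iff]
      intro b hb
      rw [Set.mem_centralizer_iff] at hb
      have h1 : Commute F b := hb F hFM
      exact ((Commute.cfc_real h1 c).symm).eq
    rwa [M.centralizer_centralizer] at this
  have hGn : ‖G‖ ≤ C := by
    refine norm_cfc_le hC.le fun x _ => ?_
    rw [Real.norm_eq_abs, abs_le]
    exact ⟨le_max_left _ _, max_le (by linarith) (min_le_right _ _)⟩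
  refine ⟨G, hGM, hGs, hGn, ?_⟩
  have hE : F - G = cfc (fun x => x - c x) F := by
    rw [cfc_sub (fun x => x) c F (by fun_prop) hc.continuousOn, cfc_id' ℝ F]
  have hEs : IsSelfAdjoint (F - G) := hFs.sub hGs
  have hEE : (F - G) * (F - G) = cfc (fun x => (x - c x) * (x - c x)) F := by
    rw [hE, cfc_mul (fun x => x - c x) (fun x => x - c x) F (by fun_prop) (by fun_prop)]
  have hFF : (1 / C ^ 2 : ℝ) • ((F * F) * (F * F)) = cfc (fun x => (1 / C ^ 2) * x ^ 4) F := by
    rw [cfc_const_mul (1 / C ^ 2) (fun x : ℝ => x ^ 4) F (by fun_prop), cfc_pow_id F 4]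
    congr 1
  have hle : (F - G) * (F - G) ≤ (1 / C ^ 2 : ℝ) • ((F * F) * (F * F)) := by
    rw [hEE, hFF]
    refine cfc_mono (fun x _ => pointwise_trunc hC x) (by fun_prop) (by fun_prop)
  have hpos := (ContinuousLinearMap.le_def _ _).1 hle
  have h1 := hpos.re_inner_nonneg_right v
  have hFFs : IsSelfAdjoint (F * F) := by rw [IsSelfAdjoint, star_mul, hFs.star_eq]
  rw [sub_apply, inner_sub_right, map_sub] at h1
  have h2 : RCLike.re ⟪v, ((1 / C ^ 2 : ℝ) • ((F * F) * (F * F))) v⟫_ℂ = (1 / C ^ 2) * ‖(F * F) v‖ ^ 2 := by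
    rw [MD.normSq_eq_re_inner (F * F) hFFs v, smul_apply, ← Complex.coe_smul, inner_smul_right]
    simp only [RCLike.re_to_complex]
    rw [Complex.re_ofReal_mul]
  have h3 : RCLike.re ⟪v, ((F - G) * (F - G)) v⟫_ℂ = ‖(F - G) v‖ ^ 2 :=
    (MD.normSq_eq_re_inner (F - G) hEs v).symm
  rw [h2, h3] at h1
  rw [div_eq_inv_mul, ← one_div]
  linarith

end Crest.Agent.Lib.MRec
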