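import Crest.Agent.Lib.MRec.Calc

set_option autoImplicit false

open Filter MeasureTheory
open scoped Topology InnerProductSpace

namespace Crest.Agent.Lib.MRec

open Crest.OpAlg

variable {H : Type*} [NormedAddCommGroup H] [InnerProductSpace ℂ H] [CompleteSpace H]

namespace LC

variable (D : LineCalculus H)

/-- bounded continuous function from a continuous compactly supported one. -/
noncomputable def bcfOfCompact (g : ℝ → ℂ) (hg : Continuous g) (hc : HasCompactSupport g) :
    BoundedContinuousFunction ℝ ℂ :=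
  BoundedContinuousFunction.ofNormedAddCommGroup g hg (hc.exists_bound_of_continuous hg).choose
    (hc.exists_bound_of_continuous hg).choose_spec

@[simp] lemma bcfOfCompact_apply (g : ℝ → ℂ) (hg : Continuous g) (hc : HasCompactSupport g) (u : ℝ) :
    bcfOfCompact g hg hc u = g u := rfl

lemma halfExp_of_compact (f fe : BoundedContinuousFunction ℝ ℂ)
    (hfe : ∀ u, fe u = f u * ((Real.exp (u / 2) : ℝ) : ℂ)) (z : H) :
    D.HalfExp (D.apply f z) (D.apply fe z) := by
  intro f₁ g₁ hg₁
  have h1 : D.apply f₁ (D.apply fe z) = D.apply (f₁ * fe) z := by rw [apply_mul]; rfl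
  have h2 : D.apply g₁ (D.apply f z) = D.apply (g₁ * f) z := by rw [apply_mul]; rfl
  rw [h1, h2]
  congr 2
  ext u
  simp only [BoundedContinuousFunction.coe_mul, Pi.mul_apply, hfe, hg₁]
  ring

end LC

/-- a conjugate-linear isometric equivalence flips the inner product. -/
lemma inner_conj_map (J : H ≃ₗᵢ⋆[ℂ] H) (x y : H) : ⟪J x, J y⟫_ℂ = ⟪y, x⟫_ℂ := by
  rw [← inner_conj_symm y x, inner_eq_sum_norm_sq_div_four (𝕜 := ℂ) x y,
    inner_eq_sum_norm_sq_div_four (𝕜 := ℂ) (J x) (J y)]
  have h1 : J x + J y = J (x + y) := (map_add _ _ _).symm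
  have h2 : J x - J y = J (x - y) := (map_sub _ _ _).symm
  have h3 : J x - (RCLike.I : ℂ) • J y = J (x + (RCLike.I : ℂ) • y) := by
    rw [map_add, map_smulₛₗ]; simp [sub_eq_add_neg]
  have h4 : J x + (RCLike.I : ℂ) • J y = J (x - (RCLike.I : ℂ) • y) := by
    rw [map_sub, map_smulₛₗ]; simp [sub_eq_add_neg]
  rw [h1, h2, h3, h4, J.norm_map, J.norm_map, J.norm_map, J.norm_map]
  simp only [map_div₀, map_mul, map_add, map_sub, map_pow, RCLike.I_to_complex]
  have h4' : (starRingEnd ℂ) (4 : ℂ) = 4 := map_ofNat _ 4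
  simp [h4']
  ring

namespace MD

variable (S : ModularDatum H)

lemma tomita_mem {y y' : H} (h : S.D.HalfExp y y') :
    (y, S.J y') ∈ closure (Set.range fun a : S.M => ((a : H →L[ℂ] H) S.vac, star (a : H →L[ℂ] H) S.vac)) := by
  rw [S.tomita]
  simpa [S.J_J] using h

/-- `(y, y')` in the graph gives the KMS-type identity at the vacuum. -/
lemma inner_J_vac {y y' : H} (h : S.D.HalfExp y y') :
    ⟪S.J S.vac, y'⟫_ℂ = ⟪S.vac, y⟫_ℂ := by
  have hmem := tomita_mem S h
  have hcont : Continuous (fun p : H × H => ⟪p.2, S.vac⟫_ℂ - ⟪S.vac, p.1⟫_ℂ) := by fun_prop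
  have hzero : ∀ p ∈ Set.range fun a : S.M => ((a : H →L[ℂ] H) S.vac, star (a : H →L[ℂ] H) S.vac),
      ⟪p.2, S.vac⟫_ℂ - ⟪S.vac, p.1⟫_ℂ = 0 := by
    rintro _ ⟨a, rfl⟩
    simp only
    rw [ContinuousLinearMap.star_eq_adjoint, ContinuousLinearMap.adjoint_inner_left, sub_self]
  have hcl : IsClosed {p : H × H | ⟪p.2, S.vac⟫_ℂ - ⟪S.vac, p.1⟫_ℂ = 0} :=
    isClosed_eq hcont continuous_const
  have := (closure_minimal (fun p hp => hzero p hp) hcl) hmem
  have h2 : ⟪S.J S.vac, y'⟫_ℂ = ⟪S.J y', S.vac⟫_ℂ := by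
    have := inner_conj_map S.J S.vac (S.J y')
    rw [S.J_J] at this
    exact this
  rw [h2]
  exact sub_eq_zero.1 this

lemma halfExp_vac : S.D.HalfExp S.vac (S.J S.vac) := by
  have h1 : ((S.vac, S.vac) : H × H) ∈
      closure (Set.range fun a : S.M => ((a : H →L[ℂ] H) S.vac, star (a : H →L[ℂ] H) S.vac)) := by
    refine subset_closure ⟨1, ?_⟩
    simp
  rw [S.tomita] at h1
  exact h1

/-- `f(D) ξ = (f e^u)(D) ξ` for compactly supported `f`. -/
lemma apply_vac_eq (f f2 : BoundedContinuousFunction ℝ ℂ) (hf : HasCompactSupport (f : ℝ → ℂ))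
    (hf2 : ∀ u, f2 u = f u * ((Real.exp u : ℝ) : ℂ)) :
    S.D.apply f S.vac = S.D.apply f2 S.vac := by
  -- the intermediate function `f e^{u/2}`
  have hc : Continuous (fun u : ℝ => f u * ((Real.exp (u / 2) : ℝ) : ℂ)) := by
    have := f.continuous
    fun_prop
  have hcs : HasCompactSupport (fun u : ℝ => f u * ((Real.exp (u / 2) : ℝ) : ℂ)) := hf.mul_right
  let fe := LC.bcfOfCompact _ hc hcs
  have hfe : ∀ u, fe u = f u * ((Real.exp (u / 2) : ℝ) : ℂ) := fun u => rfl
  -- (i) from the vacuum pair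
  have h1 : S.D.apply fe (S.J S.vac) = S.D.apply f2 S.vac := by
    refine halfExp_vac S fe f2 (fun u => ?_)
    rw [hf2, hfe, mul_assoc, ← Complex.ofReal_mul, ← Real.exp_add]
    congr 3
    ring
  -- (ii) from the inner product identity, applied to `star f`
  have h2 : S.D.apply fe (S.J S.vac) = S.D.apply f S.vac := by
    refine ext_inner_right ℂ (fun z => ?_)
    have hsf : ∀ u, (star fe) u = (star f) u * ((Real.exp (u / 2) : ℝ) : ℂ) := by
      intro u
      rw [BoundedContinuousFunction.star_apply, BoundedContinuousFunction.star_apply, hfe, star_mul']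
      congr 1
      exact Complex.conj_ofReal _
    have := inner_J_vac S (LC.halfExp_of_compact S.D (star f) (star fe) hsf z)
    -- move the operators to the other side
    simp only [LC.apply_star, ContinuousLinearMap.star_eq_adjoint,
      ContinuousLinearMap.adjoint_inner_right] at this
    exact this
  rw [← h1, h2]

lemma abs_le_exp_mul_abs_one_sub_exp {u R : ℝ} (hu : |u| ≤ R) :
    |u| ≤ Real.exp R * |1 - Real.exp u| := by
  rcases le_total 0 u with h | h
  · have h1 : u + 1 ≤ Real.exp u := Real.add_one_le_exp u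
    have hR : 0 ≤ R := (abs_nonneg u).trans hu
    have h2 : 1 ≤ Real.exp R := Real.one_le_exp hR
    rw [abs_of_nonneg h, abs_of_nonpos (by linarith)]
    nlinarith
  · have h1 : -u + 1 ≤ Real.exp (-u) := Real.add_one_le_exp (-u)
    have h2 : Real.exp (-u) ≤ Real.exp R := Real.exp_le_exp.2 (by rw [abs_of_nonpos h] at hu; exact hu)
    have h3 : Real.exp (-u) * Real.exp u = 1 := by rw [← Real.exp_add]; simp
    have h4 : 0 < Real.exp u := Real.exp_pos u
    have h5 : Real.exp u ≤ 1 := by
      rw [← Real.exp_zero]; exact Real.exp_le_exp.2 h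
    rw [abs_of_nonpos h, abs_of_nonneg (by linarith)]
    have h6 : Real.exp (-u) * (1 - Real.exp u) = Real.exp (-u) - 1 := by rw [mul_sub, h3]; ring
    have h7 : 0 ≤ 1 - Real.exp u := by linarith
    calc -u ≤ Real.exp (-u) - 1 := by linarith
      _ = Real.exp (-u) * (1 - Real.exp u) := h6.symm
      _ ≤ _ := by gcongr

/-- The multiplier `(char t - 1) ω` kills the vacuum for compactly supported `ω`. -/
lemma apply_char_mul_vac (t : ℝ) (w : BoundedContinuousFunction ℝ ℂ)
    (hw : HasCompactSupport (w : ℝ → ℂ)) :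
    S.D.apply ((LineCalculus.character t - 1) * w) S.vac = 0 := by
  obtain ⟨R, hR⟩ := hw.isCompact.isBounded.exists_norm_le
  have hR' : ∀ u, w u ≠ 0 → |u| ≤ R := fun u hu => by
    simpa using hR u (subset_tsupport _ hu)
  set G : BoundedContinuousFunction ℝ ℂ := (LineCalculus.character t - 1) * w with hG
  have hGu : ∀ u, G u = (Complex.exp (Complex.I * ((t * u : ℝ) : ℂ)) - 1) * w u := fun u => rfl
  set C : ℝ := |t| * ‖w‖ * Real.exp R with hCdef
  have hC : 0 ≤ C := by positivity
  have key : ∀ η : ℝ, 0 < η → ‖S.D.apply G S.vac‖ ≤ C * η := by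
    intro η hη
    have hd : ∀ u : ℝ, 0 < (1 - Real.exp u) ^ 2 + η ^ 2 := fun u => by positivity
    have hrat : Continuous (fun u : ℝ => (((1 - Real.exp u) / ((1 - Real.exp u) ^ 2 + η ^ 2) : ℝ) : ℂ)) := by
      refine Complex.continuous_ofReal.comp ?_
      refine Continuous.div (by fun_prop) (by fun_prop) (fun u => (hd u).ne')
    have hFc : Continuous (fun u : ℝ => G u * (((1 - Real.exp u) / ((1 - Real.exp u) ^ 2 + η ^ 2) : ℝ) : ℂ)) :=
      G.continuous.mul hrat
    have hGc : HasCompactSupport (G : ℝ → ℂ) := by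
      have : (G : ℝ → ℂ) = fun u => (LineCalculus.character t - 1 : BoundedContinuousFunction ℝ ℂ) u * w u := rfl
      rw [this]
      exact hw.mul_left
    have hFs : HasCompactSupport (fun u : ℝ => G u * (((1 - Real.exp u) / ((1 - Real.exp u) ^ 2 + η ^ 2) : ℝ) : ℂ)) :=
      hGc.mul_right
    let F := LC.bcfOfCompact _ hFc hFs
    have hFu : ∀ u, F u = G u * (((1 - Real.exp u) / ((1 - Real.exp u) ^ 2 + η ^ 2) : ℝ) : ℂ) := fun u => rfl
    let F2 : BoundedContinuousFunction ℝ ℂ :=
      LC.bcfOfCompact (fun u => F u * ((Real.exp u : ℝ) : ℂ))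
        (F.continuous.mul (by fun_prop)) ((show HasCompactSupport (F : ℝ → ℂ) from hFs).mul_right)
    have hF2u : ∀ u, F2 u = F u * ((Real.exp u : ℝ) : ℂ) := fun u => rfl
    have h1 := apply_vac_eq S F F2 hFs hF2u
    have h2 : S.D.apply G S.vac = S.D.apply (G - (F - F2)) S.vac := by
      rw [LC.apply_sub, LC.apply_sub]
      simp [h1]
    rw [h2]
    have hn : ‖G - (F - F2)‖ ≤ C * η := by
      refine (BoundedContinuousFunction.norm_le (by positivity)).2 fun u => ?_
      have hval : (G - (F - F2)) u = G u * ((η ^ 2 / ((1 - Real.exp u) ^ 2 + η ^ 2) : ℝ) : ℂ) := by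
        simp only [BoundedContinuousFunction.coe_sub, Pi.sub_apply, hF2u, hFu]
        have hne : ((1 - Real.exp u) ^ 2 + η ^ 2 : ℝ) ≠ 0 := (hd u).ne'
        have hne' : (((1 - Real.exp u) ^ 2 + η ^ 2 : ℝ) : ℂ) ≠ 0 := by exact_mod_cast hne
        push_cast at hne' ⊢
        field_simp
        ring
      rw [hval, norm_mul, Complex.norm_real, Real.norm_eq_abs, abs_of_nonneg (by positivity)]
      by_cases hwu : w u = 0
      · rw [hGu, hwu]
        simp only [mul_zero, norm_zero, zero_mul]
        positivity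
      · have hu := hR' u hwu
        have hb : ‖G u‖ ≤ |t| * ‖w‖ * (Real.exp R * |1 - Real.exp u|) := by
          rw [hGu, norm_mul]
          have e1 : ‖Complex.exp (Complex.I * ((t * u : ℝ) : ℂ)) - 1‖ ≤ |t * u| :=
            (Real.norm_exp_I_mul_ofReal_sub_one_le).trans_eq (Real.norm_eq_abs _)
          have e2 : ‖w u‖ ≤ ‖w‖ := w.norm_coe_le_norm u
          have e3 := abs_le_exp_mul_abs_one_sub_exp hu
          rw [abs_mul] at e1
          calc _ ≤ (|t| * |u|) * ‖w‖ := by gcongr
            _ = |t| * ‖w‖ * |u| := by ring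
            _ ≤ _ := by gcongr
        have hfrac : |1 - Real.exp u| * (η ^ 2 / ((1 - Real.exp u) ^ 2 + η ^ 2)) ≤ η := by
          rw [← mul_div_assoc, div_le_iff₀ (hd u)]
          have : (1 - Real.exp u) ^ 2 = |1 - Real.exp u| ^ 2 := (sq_abs _).symm
          rw [this]
          nlinarith [sq_nonneg (|1 - Real.exp u| - η), abs_nonneg (1 - Real.exp u), mul_nonneg (abs_nonneg (1 - Real.exp u)) hη.le, pow_pos hη 3, mul_pos hη hη]
        calc ‖G u‖ * (η ^ 2 / ((1 - Real.exp u) ^ 2 + η ^ 2))
            ≤ (|t| * ‖w‖ * (Real.exp R * |1 - Real.exp u|)) * (η ^ 2 / ((1 - Real.exp u) ^ 2 + η ^ 2)) := by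
              gcongr
          _ = C * (|1 - Real.exp u| * (η ^ 2 / ((1 - Real.exp u) ^ 2 + η ^ 2))) := by
              rw [hCdef]; ring
          _ ≤ C * η := by gcongr
    calc _ ≤ ‖S.D.apply (G - (F - F2))‖ * ‖S.vac‖ := ContinuousLinearMap.le_opNorm _ _
      _ ≤ (C * η) * 1 := by
          rw [S.norm_vac]
          gcongr
          exact (LC.norm_apply_le S.D _).trans hn
      _ = _ := by ring
  have h0 : ‖S.D.apply G S.vac‖ ≤ 0 := by
    refine le_of_forall_pos_le_add fun ε hε => ?_
    by_cases hC0 : C = 0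
    · have := key 1 one_pos
      rw [hC0] at this
      linarith
    · have hCpos : 0 < C := lt_of_le_of_ne hC (Ne.symm hC0)
      have := key (ε / C) (by positivity)
      rw [mul_div_cancel₀ _ hC0] at this
      linarith
  exact norm_le_zero_iff.1 h0

/-- The vacuum is fixed by the unitary group. -/
lemma wave_vac (t : ℝ) : S.D.wave t S.vac = S.vac := by
  have h0 : ‖S.D.apply (LineCalculus.character t - 1) S.vac‖ ≤ 0 := by
    refine le_of_forall_pos_le_add fun ε hε => ?_
    have hh : 0 < ‖(LineCalculus.character t - 1 : BoundedContinuousFunction ℝ ℂ)‖ + 1 := by positivity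
    obtain ⟨w, hw, hwx⟩ := S.D.window S.vac (ε / (‖(LineCalculus.character t - 1 : BoundedContinuousFunction ℝ ℂ)‖ + 1)) (by positivity)
    have h1 := apply_char_mul_vac S t w hw
    rw [LC.apply_mul] at h1
    have h2 : S.D.apply (LineCalculus.character t - 1) (S.D.apply w S.vac) = 0 := h1
    have h3 : S.D.apply (LineCalculus.character t - 1) S.vac =
        S.D.apply (LineCalculus.character t - 1) (S.vac - S.D.apply w S.vac) := by
      rw [(S.D.apply (LineCalculus.character t - 1)).map_sub, h2, sub_zero]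
    rw [h3, zero_add]
    calc _ ≤ ‖S.D.apply (LineCalculus.character t - 1)‖ * ‖S.vac - S.D.apply w S.vac‖ :=
          ContinuousLinearMap.le_opNorm _ _
      _ ≤ (‖(LineCalculus.character t - 1 : BoundedContinuousFunction ℝ ℂ)‖ + 1) *
            (ε / (‖(LineCalculus.character t - 1 : BoundedContinuousFunction ℝ ℂ)‖ + 1)) := by
          gcongr
          · exact (LC.norm_apply_le S.D _).trans (by linarith)
          · rw [norm_sub_rev]; exact hwx.le
      _ = ε := by field_simp
  have h1 := norm_le_zero_iff.1 h0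
  rw [LC.apply_sub, LC.apply_one] at h1
  have h2 : S.D.wave t S.vac - S.vac = 0 := by simpa [LineCalculus.wave] using h1
  exact sub_eq_zero.1 h2

end MD

end Crest.Agent.Lib.MRec
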